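import Vale.Agent.P030.T.Frame
import Vale.Agent.P030.H826.Flag

/-!
# P030, frame T: reduction of AF to bounds for single columns

A *frame* is a complex matrix `W` (rows = frame vectors, columns = row monomials).  If for every
column `c` of the pool and every combination of frame vectors with coefficients of modulus at most
one which is killed by all earlier columns of the pool the value of the column is at most
`exp (β c)`, then `|det| ≤ exp (Σ β - log |det W|)`.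
-/

open Finset Matrix

namespace Vale.Agent.P030.T

/-- value of the column `c` on the row vector `v` -/
noncomputable def val (D : ℕ) (x : ℝ) (v : Fin D × Fin 8 → ℂ) (c : Cl) : ℂ :=
  ∑ r, v r * ((En D x r c : ℝ) : ℂ)

theorem val_killed {P : Par} {c0 s : ℕ} {τ : Cl → ℕ} {x : ℝ} {σ : Fin (P.D0 * s) × Fin 8 → Cl}
    (h : Flg P c0 s τ x σ) {N : ℕ} {v : Fin (P.D0 * s) × Fin 8 → ℂ}
    (hv : ∀ b, τ (σ b) < N → val (P.D0 * s) x v (σ b) = 0) {c : Cl}
    (hc : c.2 < P.ht c.1 * s + c0) (hN : τ c < N) : val (P.D0 * s) x v c = 0 := by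
  obtain ⟨w, hw0, hw⟩ := h c hc
  have h1 : val (P.D0 * s) x v c = ∑ b, (w b : ℂ) * val (P.D0 * s) x v (σ b) := by
    unfold val
    simp_rw [Finset.mul_sum]
    rw [Finset.sum_comm]
    refine Finset.sum_congr rfl fun r _ => ?_
    rw [hw r]
    push_cast
    rw [Finset.mul_sum]
    exact Finset.sum_congr rfl fun b _ => by ring
  rw [h1]
  refine Finset.sum_eq_zero fun b _ => ?_
  by_cases hb : τ c < τ (σ b)
  · rw [hw0 b hb]; simp
  · rw [hv b (lt_of_le_of_lt (not_lt.1 hb) hN), mul_zero]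

/-- the bound for one flagged choice -/
theorem det_le_of_cols {P : Par} {c0 s : ℕ} {τ : Cl → ℕ} (hτ : Function.Injective τ) {x : ℝ}
    (W : Matrix (Fin (P.D0 * s) × Fin 8) (Fin (P.D0 * s) × Fin 8) ℂ) {R : ℝ}
    (hW : Real.exp R ≤ ‖W.det‖) (β : Cl → ℝ)
    (hβ : ∀ c : Cl, c.2 < P.ht c.1 * s + c0 → ∀ u : Fin (P.D0 * s) × Fin 8 → ℂ,
      (∀ i, ‖u i‖ ≤ 1) →
      (∀ c' : Cl, c'.2 < P.ht c'.1 * s + c0 → τ c' < τ c → val (P.D0 * s) x (u ᵥ* W) c' = 0) →
      ‖val (P.D0 * s) x (u ᵥ* W) c‖ ≤ Real.exp (β c))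
    (σ : Fin (P.D0 * s) × Fin 8 → Cl) (hσ : Adm P c0 s σ) (hf : Flg P c0 s τ x σ) :
    |(Mx (P.D0 * s) x σ).det| ≤ Real.exp (∑ a, β (σ a) - R) := by
  classical
  set M : Matrix (Fin (P.D0 * s) × Fin 8) (Fin (P.D0 * s) × Fin 8) ℂ :=
    (Mx (P.D0 * s) x σ).map (algebraMap ℝ ℂ) with hM
  have hval : ∀ (u : Fin (P.D0 * s) × Fin 8 → ℂ) a,
      ∑ i, u i * (W * M) i a = val (P.D0 * s) x (u ᵥ* W) (σ a) := by
    intro u a
    have h1 : ∑ i, u i * (W * M) i a = (u ᵥ* (W * M)) a := rfl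
    rw [h1, ← Matrix.vecMul_vecMul]
    rfl
  have h2 : ‖(W * M).det‖ ≤ ∏ a, Real.exp (β (σ a)) := by
    refine H826.det_le_of_flag (fun a => τ (σ a)) (hτ.comp hσ.1) (W * M) _ ?_
    intro a u hu hk
    rw [hval]
    refine hβ (σ a) (hσ.2 a) u hu fun c' hc' hlt => ?_
    exact val_killed hf (fun b hb => by rw [← hval]; exact hk b hb) hc' hlt
  rw [← Real.exp_sum, Matrix.det_mul, norm_mul] at h2
  have h3 : ‖M.det‖ = |(Mx (P.D0 * s) x σ).det| := by
    rw [hM, ← RingHom.mapMatrix_apply, ← RingHom.map_det]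
    simp
  rw [h3] at h2
  have h4 : Real.exp R * |(Mx (P.D0 * s) x σ).det| ≤ Real.exp (∑ a, β (σ a)) :=
    le_trans (mul_le_mul_of_nonneg_right hW (abs_nonneg _)) h2
  rw [Real.exp_sub, le_div_iff₀ (Real.exp_pos R), mul_comm]
  exact h4

/-- the sum over the chosen columns against the sum over the exact rectangle -/
theorem sum_sel_le {P : Par} {c0 s : ℕ} (hcard : ∑ g : Gp, P.ht g = 8 * P.D0)
    {σ : Fin (P.D0 * s) × Fin 8 → Cl} (hσ : Adm P c0 s σ) {β : Cl → ℝ} {b : ℝ}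
    (hb : ∀ c : Cl, c.2 < P.ht c.1 * s + c0 → |β c| ≤ b) :
    ∑ a, β (σ a) ≤ ∑ g : Gp, ∑ k ∈ range (P.ht g * s), β (g, k) + 34 * c0 * b := by
  classical
  -- the chosen set and the rectangle inside the pool
  set S : Finset Cl := Finset.univ.image σ with hS
  have hSp : S ⊆ pool P c0 s := by
    intro c hc
    obtain ⟨a, _, rfl⟩ := Finset.mem_image.1 hc
    exact mem_pool.2 (hσ.2 a)
  have hRp : pool P 0 s ⊆ pool P c0 s := by
    intro c hc
    rw [mem_pool] at hc ⊢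
    omega
  have hpc : ∀ e : ℕ, (pool P e s).card = 8 * P.D0 * s + 17 * e := by
    intro e
    unfold pool
    rw [Finset.card_biUnion]
    · have h1 : ∀ g : Gp, ((range (P.ht g * s + e)).image fun k => ((g, k) : Cl)).card
          = P.ht g * s + e := by
        intro g
        rw [Finset.card_image_of_injective _ (fun a b h => (Prod.mk.inj h).2), Finset.card_range]
      rw [Finset.sum_congr rfl fun g _ => h1 g, Finset.sum_add_distrib, ← Finset.sum_mul, hcard,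
        Finset.sum_const]
      rfl
    · intro g _ g' _ hne
      rw [Function.onFun, Finset.disjoint_left]
      intro c hc hc'
      obtain ⟨k, _, rfl⟩ := Finset.mem_image.1 hc
      obtain ⟨k', _, h⟩ := Finset.mem_image.1 hc'
      exact hne (Prod.mk.inj h).1.symm
  have hSc : S.card = 8 * P.D0 * s := by
    rw [hS, Finset.card_image_of_injective _ hσ.1, Finset.card_univ, Fintype.card_prod,
      Fintype.card_fin, Fintype.card_fin]
    ring
  have h0 : ∑ a, β (σ a) = ∑ c ∈ S, β c := by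
    rw [hS, Finset.sum_image fun a _ b _ h => hσ.1 h]
  have h0' : ∑ g : Gp, ∑ k ∈ range (P.ht g * s), β (g, k) = ∑ c ∈ pool P 0 s, β c := by
    unfold pool
    rw [Finset.sum_biUnion]
    · refine Finset.sum_congr rfl fun g _ => ?_
      rw [Finset.sum_image fun a _ b _ h => (Prod.mk.inj h).2]
      simp
    · intro g _ g' _ hne
      rw [Function.onFun, Finset.disjoint_left]
      intro c hc hc'
      obtain ⟨k, _, rfl⟩ := Finset.mem_image.1 hc
      obtain ⟨k', _, h⟩ := Finset.mem_image.1 hc'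
      exact hne (Prod.mk.inj h).1.symm
  rw [h0, h0']
  have h1 := Finset.sum_sdiff hSp (f := β)
  have h2 := Finset.sum_sdiff hRp (f := β)
  have h3 : ∀ T ⊆ pool P c0 s, T.card = 8 * P.D0 * s →
      |∑ c ∈ pool P c0 s \ T, β c| ≤ 17 * c0 * b := by
    intro T hT hTc
    refine le_trans (Finset.abs_sum_le_sum_abs _ _) ?_
    refine le_trans (Finset.sum_le_card_nsmul _ _ b fun c hc => hb c (mem_pool.1
      (Finset.mem_sdiff.1 hc).1)) ?_
    have h4 : (pool P c0 s \ T).card = 17 * c0 := by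
      rw [Finset.card_sdiff_of_subset hT, hpc, hTc]
      omega
    rw [h4, nsmul_eq_mul]
    push_cast
    exact le_rfl
  have h5 := (abs_le.1 (h3 S hSp hSc)).1
  have h6 := (abs_le.1 (h3 (pool P 0 s) hRp (by rw [hpc]; omega))).2
  linarith

theorem exists_small (c0 : ℕ) {ε : ℝ} (hε : 0 < ε) :
    ∃ δ : ℝ, 0 < δ ∧ δ * (34 * (c0 : ℝ) + 1) = ε := by
  refine ⟨ε / (34 * (c0 : ℝ) + 1), by positivity, ?_⟩
  have : (34 * (c0 : ℝ) + 1) ≠ 0 := by positivity
  field_simp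

/-- **AF from column bounds** -/
theorem stAF_of_cols {P : Par} {c0 : ℕ} {A : ℝ} (hcard : ∑ g : Gp, P.ht g = 8 * P.D0)
    (h : ∀ ε : ℝ, 0 < ε → ∃ s0 : ℕ, ∀ s, s0 ≤ s → ∃ (τ : Cl → ℕ) (β : Cl → ℝ) (R : ℝ)
      (W : Matrix (Fin (P.D0 * s) × Fin 8) (Fin (P.D0 * s) × Fin 8) ℂ),
      Function.Injective τ ∧ Real.exp R ≤ ‖W.det‖ ∧
      (∀ c : Cl, c.2 < P.ht c.1 * s + c0 → |β c| ≤ ε * (s : ℝ) ^ 2) ∧
      (∑ g : Gp, ∑ k ∈ range (P.ht g * s), β (g, k) - R ≤ -(A - ε) * (s : ℝ) ^ 2) ∧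
      ∀ c : Cl, c.2 < P.ht c.1 * s + c0 → ∀ u : Fin (P.D0 * s) × Fin 8 → ℂ,
        (∀ i, ‖u i‖ ≤ 1) →
        (∀ c' : Cl, c'.2 < P.ht c'.1 * s + c0 → τ c' < τ c →
          val (P.D0 * s) (Gc / 2) (u ᵥ* W) c' = 0) →
        ‖val (P.D0 * s) (Gc / 2) (u ᵥ* W) c‖ ≤ Real.exp (β c)) : StAF P c0 A := by
  intro ε hε
  obtain ⟨δ, hδ, hδε⟩ := exists_small c0 hε
  obtain ⟨s0, h0⟩ := h δ hδ
  refine ⟨s0, fun s hs => ?_⟩
  obtain ⟨τ, β, R, W, hτ, hW, hβ, hsum, hcol⟩ := h0 s hs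
  refine ⟨τ, hτ, fun σ hσ hf => ?_⟩
  have h1 := sum_sel_le (P := P) (c0 := c0) (s := s) (σ := σ) (β := β) (b := δ * (s : ℝ) ^ 2)
    hcard hσ hβ
  refine le_trans (det_le_of_cols hτ W hW β hcol σ hσ hf) (Real.exp_le_exp.2 ?_)
  have h2 : 34 * (c0 : ℝ) * (δ * (s : ℝ) ^ 2) + δ * (s : ℝ) ^ 2 = ε * (s : ℝ) ^ 2 := by
    rw [← hδε]; ring
  linarith

end Vale.Agent.P030.T
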