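import Mathlib

/-!
# P030 (Catalan's constant), frame T: the determinant

The `u`-line with cusps `c0 : u = 0`, `c1 : u = -1`, `c2 : u = ∞`, `c3 : u = 1`; local parameters
`t = u`, `t = (u+1)/(u-1)`, `t = 1/u`, `t = (u-1)/(u+1)`.

Rows: `μ_i e_j`, `i < D`, `j < 8`, where `μ_i = u^i (1-u)^{-(D-1)}` and the eight functions are
`1, l, L, Li2, f6, f7, (1-u) F, (1-u) θF` (`l = log 2`, `L = - log (1-u)`, `f7 = L (L + l) / 2`,
`f6 = l L / 2 + ∫ (L + l) du / (1+u)`, `F = B - x K`, `θ = u d/du`).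

Columns: `(g, k)`, `g` one of 17 groups (a cusp and an 8-tuple of power series in the local
parameter), `k` the order.  Entry: the coefficient of `t^k` in `μ_i Φ_{g,j}` (times `t^(D-1)` at
`c3`).  Only the group `z1` contains the unknown number `x`.
-/

open PowerSeries

namespace Vale.Agent.P030.T

/-! ### elementary series -/

/-- `K(t) = Σ C(2k,k)² (t/4)^{2k}` -/
noncomputable def serK : ℚ⟦X⟧ :=
  mk fun n => if Even n then ((Nat.centralBinom (n / 2) : ℚ)) ^ 2 / 4 ^ n else 0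

/-- coefficients of `B` : `n² B_n = (n-1)² B_{n-2} - 1/4`, `B_0 = 0` -/
def cB : ℕ → ℚ
  | 0 => 0
  | 1 => -1 / 4
  | n + 2 => (((n : ℚ) + 1) ^ 2 * cB n - 1 / 4) / ((n : ℚ) + 2) ^ 2

/-- coefficients of `B2` : `n² b_n = (n-1)² b_{n-2}`, `b_0 = 0`, `b_1 = - 1/4` -/
def cB2 : ℕ → ℚ
  | 0 => 0
  | 1 => -1 / 4
  | n + 2 => (((n : ℚ) + 1) ^ 2 * cB2 n) / ((n : ℚ) + 2) ^ 2

/-- coefficients of `M` : the second solution at a cusp is `K log t + M`,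
`M_n = K_n Σ_{j ≤ n even} 2 (1/(j-1) - 1/j)` -/
def cMs (n : ℕ) : ℚ := ∑ j ∈ Finset.range (n / 2), (2 / (2 * (j : ℚ) + 1) - 2 / (2 * (j : ℚ) + 2))

noncomputable def serB : ℚ⟦X⟧ := mk cB
noncomputable def serB2 : ℚ⟦X⟧ := mk cB2
noncomputable def serM : ℚ⟦X⟧ := mk fun n => coeff n serK * cMs n

/-- `- log (1 - t)` -/
noncomputable def lgm : ℚ⟦X⟧ := mk fun n => if n = 0 then 0 else 1 / (n : ℚ)
/-- `log (1 + t)` -/
noncomputable def lgp : ℚ⟦X⟧ := mk fun n => if n = 0 then 0 else (-1) ^ (n + 1) / (n : ℚ)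
/-- `Li2 (t)` -/
noncomputable def li2 : ℚ⟦X⟧ := mk fun n => if n = 0 then 0 else 1 / (n : ℚ) ^ 2
/-- formal integration -/
noncomputable def integ (f : ℚ⟦X⟧) : ℚ⟦X⟧ :=
  mk fun n => if n = 0 then 0 else coeff (n - 1) f / (n : ℚ)
/-- `θ = t d/dt` -/
noncomputable def th (f : ℚ⟦X⟧) : ℚ⟦X⟧ := mk fun n => (n : ℚ) * coeff n f
/-- `d/dt` -/
noncomputable def dd (f : ℚ⟦X⟧) : ℚ⟦X⟧ := mk fun n => ((n : ℚ) + 1) * coeff (n + 1) f
/-- `1/(1-t)` -/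
noncomputable def geo : ℚ⟦X⟧ := mk fun _ => 1
/-- `1/(1+t)` -/
noncomputable def geoa : ℚ⟦X⟧ := mk fun n => (-1) ^ n
/-- `1/(1-t²)` -/
noncomputable def geo2 : ℚ⟦X⟧ := mk fun n => if Even n then 1 else 0

/-- scalar -/
noncomputable def sc (q : ℚ) (f : ℚ⟦X⟧) : ℚ⟦X⟧ := C q * f

/-! ### groups -/

/-- the 17 groups -/
inductive Gp
  | z1 | zl | z8 | zab
  | w1 | wl | wy | w8 | wab | wf7
  | v2 | vl | v8 | vb
  | x2 | xl | x1
  deriving DecidableEq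

/-- the cusp of a group -/
def Gp.cusp : Gp → Fin 4
  | .z1 => 0 | .zl => 0 | .z8 => 0 | .zab => 0
  | .w1 => 1 | .wl => 1 | .wy => 1 | .w8 => 1 | .wab => 1 | .wf7 => 1
  | .v2 => 2 | .vl => 2 | .v8 => 2 | .vb => 2
  | .x2 => 3 | .xl => 3 | .x1 => 3

/-- `μ_i` in the local parameter (times `t^(D-1)` at `c3`) -/
noncomputable def mon (D : ℕ) (c : Fin 4) (i : ℕ) : ℚ⟦X⟧ :=
  match c with
  | 0 => X ^ i * geo ^ (D - 1)
  | 1 => sc ((-1) ^ i / 2 ^ (D - 1)) ((1 + X) ^ i * (1 - X) ^ (D - 1 - i))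
  | 2 => sc ((-1) ^ (D - 1)) (X ^ (D - 1 - i) * geo ^ (D - 1))
  | 3 => sc (1 / (-2) ^ (D - 1)) ((1 + X) ^ i * (1 - X) ^ (D - 1 - i))

/-- `((1+t)/2) ((1-t) f)'` : this is `(1-u) θ (((1-t)/2) f)` at `c1` -/
noncomputable def tw (f : ℚ⟦X⟧) : ℚ⟦X⟧ := sc (1 / 2) ((1 + X) * dd ((1 - X) * f))

/-- the part of `Φ_{g,j}` which does not contain `x` -/
noncomputable def tup0 : Gp → Fin 8 → ℚ⟦X⟧
  | .z1 => ![1, 0, lgm, li2, integ (geoa * lgm), sc (1 / 2) (lgm ^ 2), (1 - X) * serB,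
      (1 - X) * th serB]
  | .zl => ![0, 1, 0, 0, sc (1 / 2) lgm + lgp, sc (1 / 2) lgm, 0, 0]
  | .z8 => ![0, 0, 0, 0, 0, 0, (1 - X) * serK, (1 - X) * th serK]
  | .zab => ![0, 0, 0, 1, 0, 0, 0, 0]
  | .w1 => ![1, 0, -lgm, -sc 2 (integ (geo2 * lgm)), -li2 - sc (1 / 2) (lgm ^ 2),
      sc (1 / 2) (lgm ^ 2), serB2, tw serB2]
  | .wl => ![0, 1, -1, -(lgp + lgm), -sc (1 / 2) lgm, sc (1 / 2) lgm, 0, 0]
  | .wy => ![0, 0, 0, -C (4 / 3), -C (4 / 3), 0, -serK, -tw serK]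
  | .w8 => ![0, 0, 0, 0, 0, 0, serK, tw serK]
  | .wab => ![0, 0, 0, 1, 0, 0, 0, 0]
  | .wf7 => ![0, 0, 0, 0, 0, 1, 0, 0]
  | .v2 => ![0, 0, 0, -1, -1, 1, 0, 0]
  | .vl => ![0, 0, 0, 0, -1, 1, 0, 0]
  | .v8 => ![0, 0, 0, 0, 0, 0, -((1 - X) * serK), (1 - X) * dd (X * serK)]
  | .vb => ![0, 0, 1, 0, lgp, lgm, 0, 0]
  | .x2 => ![0, 0, 0, 0, 0, C (1 / 2), sc (1 / 8) (X * serK), sc (1 / 8) (X * tw serK)]
  | .xl => ![0, 0, 0, 0, -1, 1, -(X * serK), -(X * tw serK)]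
  | .x1 => ![0, 0, -1, -(lgp + lgm), -lgm, lgm, sc (1 / 4) (X * serM),
      sc (1 / 4) (X * tw serM + sc (1 / 2) ((1 - X ^ 2) * serK))]

/-- the coefficient of `x` in `Φ_{g,j}` -/
noncomputable def tup1 : Gp → Fin 8 → ℚ⟦X⟧
  | .z1 => ![0, 0, 0, 0, 0, 0, -((1 - X) * serK), -((1 - X) * th serK)]
  | _ => fun _ => 0

/-! ### the matrix -/

/-- entries -/
noncomputable def ent0 (D : ℕ) (g : Gp) (k i : ℕ) (j : Fin 8) : ℚ :=
  coeff k (mon D g.cusp i * tup0 g j)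

noncomputable def ent1 (D : ℕ) (g : Gp) (k i : ℕ) (j : Fin 8) : ℚ :=
  coeff k (mon D g.cusp i * tup1 g j)

/-- a column: group and order -/
abbrev Cl := Gp × ℕ

/-- the matrix with the columns `σ`, at the point `x` of a field extension of `ℚ` -/
noncomputable def Mx {R : Type*} [Field R] [Algebra ℚ R] (D : ℕ) (x : R)
    (σ : Fin D × Fin 8 → Cl) : Matrix (Fin D × Fin 8) (Fin D × Fin 8) R :=
  Matrix.of fun r c => algebraMap ℚ R (ent0 D (σ c).1 (σ c).2 r.1 r.2)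
    + x * algebraMap ℚ R (ent1 D (σ c).1 (σ c).2 r.1 r.2)

/-- Catalan's constant -/
noncomputable def Gc : ℝ := ∑' j : ℕ, (-1) ^ j / (2 * (j : ℝ) + 1) ^ 2

end Vale.Agent.P030.T
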