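import Vale.Agent.P030.T.ArRed

/-!
# P030, frame T: the end

`DesA` is the design with `D = 27 s` rows per function.
-/

open Finset

namespace Vale.Agent.P030.T

/-- design A -/
def DesA : Par where
  D0 := 27
  ht := fun
    | .z1 | .zl | .w1 | .wl | .wy => 32
    | .z8 | .zab | .vl | .v8 | .vb | .xl | .x1 => 4
    | .w8 | .wab | .wf7 => 2
    | .v2 => 12
    | .x2 => 10

theorem DesA_card : ∑ g : Gp, DesA.ht g = 8 * DesA.D0 := by decide

theorem StZE.mono {P : Par} {c0 c1 : ℕ} (h : c0 ≤ c1) (hz : StZE P c0) : StZE P c1 := by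
  intro x
  obtain ⟨s0, h0⟩ := hz x
  exact ⟨s0, fun s hs v hv => h0 s hs v fun c hc => hv c (lt_of_lt_of_le hc (by omega))⟩

/-- the end -/
theorem catalan_of {P : Par} {A B B2 : ℝ} (hNV : ∃ c0, StZE P c0) (hAR : ∀ c0, StAF P c0 A)
    (hOD : ∀ c0, StOD P c0 B) (hTW : ∀ c0, StTW P c0 B2) (hnum : B + B2 < A) :
    Irrational (∑' j : ℕ, (-1 : ℝ) ^ j / (2 * (j : ℝ) + 1) ^ 2) := by
  obtain ⟨c0, h0⟩ := hNV
  exact irrational_of_flagged h0 (hAR c0) (hOD c0) (hTW c0) hnum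

end Vale.Agent.P030.T
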