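import Vale.Agent.P030.T.Final
import Vale.Agent.P030.H605.NVA
import Vale.Agent.P030.H914.TwMain
import Vale.Agent.P030.H778.Prof

/-!
# P030, the joints of the final theorem for the frozen design A (`H579.parA`)

Nonvanishing (`H605.stZE_A`) and the power of two (`H914.stTW`) are proved.
The open inputs are the hypotheses of `catalan_open`.
-/

open Finset

namespace Vale.Agent.P030.T

theorem DesA_eq : DesA = H579.parA := H778.parA_eq.symm

theorem StAF.mono {P : Par} {c0 : ℕ} {A A' : ℝ} (h : A' ≤ A) (hA : StAF P c0 A) :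
    StAF P c0 A' := by
  intro ε hε
  obtain ⟨s0, h0⟩ := hA ε hε
  refine ⟨s0, fun s hs => ?_⟩
  obtain ⟨τ, hτ, h1⟩ := h0 s hs
  refine ⟨τ, hτ, fun σ hσ hf => (h1 σ hσ hf).trans ?_⟩
  apply Real.exp_le_exp.2
  nlinarith [sq_nonneg (s : ℝ)]

theorem StOD.mono {P : Par} {c0 : ℕ} {B B' : ℝ} (h : B ≤ B') (hB : StOD P c0 B) :
    StOD P c0 B' := by
  intro x ε hε
  obtain ⟨s0, h0⟩ := hB x ε hε
  refine ⟨s0, fun s hs => ?_⟩
  obtain ⟨S, c, h1, h2, h3⟩ := h0 s hs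
  exact ⟨S, c, h1, h2.trans (by nlinarith [sq_nonneg (s : ℝ)]), h3⟩

theorem StTW.mono {P : Par} {c0 : ℕ} {B B' : ℝ} (h : B ≤ B') (hB : StTW P c0 B) :
    StTW P c0 B' := by
  intro x ε hε
  obtain ⟨s0, h0⟩ := hB x ε hε
  exact ⟨s0, fun s hs σ hσ hd => (h0 s hs σ hσ hd).trans (by nlinarith [sq_nonneg (s : ℝ)])⟩

/-- the end for design A, any `c0 ≥ 7` -/
theorem catalan_A {c0 : ℕ} {A B B2 : ℝ} (hc : 7 ≤ c0) (hAF : StAF H579.parA c0 A)
    (hOD : StOD H579.parA c0 B) (hTW : StTW H579.parA c0 B2) (hnum : B + B2 < A) :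
    Irrational (∑' j : ℕ, (-1 : ℝ) ^ j / (2 * (j : ℝ) + 1) ^ 2) :=
  irrational_of_flagged (H605.stZE_A hc) hAF hOD hTW hnum

/-- the end for design A with `B2 = 13945 / 4 * log 2 < 2416.4844` and `B = 1747.3` -/
theorem catalan_A_num {A : ℝ} (hAF : StAF H579.parA 7 A)
    (hOD : StOD H579.parA 7 (17473 / 10)) (hTW : StTW H579.parA 7 (13945 / 4 * Real.log 2))
    (hnum : (41637844 / 10000 : ℝ) ≤ A) :
    Irrational (∑' j : ℕ, (-1 : ℝ) ^ j / (2 * (j : ℝ) + 1) ^ 2) :=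
  catalan_A le_rfl hAF hOD hTW (by
    have := Real.log_two_lt_d9
    linarith)

/-- the end for design A, two open inputs -/
theorem catalan_open {A B : ℝ} (hAF : StAF H579.parA 7 A) (hOD : StOD H579.parA 7 B)
    (hnum : B + 24164844 / 10000 ≤ A) :
    Irrational (∑' j : ℕ, (-1 : ℝ) ^ j / (2 * (j : ℝ) + 1) ^ 2) :=
  catalan_A le_rfl hAF hOD (H914.stTW 7) (by
    have := Real.log_two_lt_d9
    linarith)

/-- the same with the odd part split by helper778 -/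
theorem catalan_open' {A : ℝ} (hAF : StAF H579.parA 7 A)
    (h1 : H778.Loc DesA 7 (Set.Ioc (27 / 2) 15) fun q => 143 - 5 * q)
    (h2 : H778.Loc DesA 7 (Set.Ioc 15 16) fun q => 83 - q)
    (h3 : H778.Loc DesA 7 (Set.Ioc 16 (86 / 5)) fun q => 5 * q - 13)
    (h4 : H778.Loc DesA 7 (Set.Ioc (86 / 5) 25) fun q => 159 - 5 * q)
    (h5 : H778.Loc DesA 7 (Set.Ioo 25 32) fun q =>
      6 * (32 - q) - min (32 - q) 4 - 2 * min (32 - q) 2)
    (hnum : (41645344 / 10000 : ℝ) ≤ A) :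
    Irrational (∑' j : ℕ, (-1 : ℝ) ^ j / (2 * (j : ℝ) + 1) ^ 2) := by
  have hOD := H778.stOD_A 7 h1 h2 h3 h4 h5
  rw [← H778.parA_eq] at hOD
  refine catalan_open hAF hOD ?_
  linarith

end Vale.Agent.P030.T
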