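import Mathlib

/-!
# Greedy choice of columns

If the columns `f c`, `c ∈ T`, span, then there is a square nonsingular choice `σ` such that every
column of `T` is a combination of chosen columns which do not come later in the order `τ`.
-/

namespace Vale.Agent.P030.T

open Finset Submodule

theorem greedy {F ι κ : Type*} [Field F] [Fintype ι] [DecidableEq ι] (T : Finset κ)
    (τ : κ → ℕ) (hτ : Function.Injective τ) (f : κ → ι → F)
    (hs : ∀ v : ι → F, (∀ c ∈ T, ∑ r, v r * f c r = 0) → v = 0) :
    ∃ σ : ι → κ, Function.Injective σ ∧ (∀ a, σ a ∈ T) ∧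
      (Matrix.of fun r a => f (σ a) r).det ≠ 0 ∧
      ∀ c ∈ T, ∃ w : ι → F, (∀ b, τ c < τ (σ b) → w b = 0) ∧
        ∀ r, f c r = ∑ b, f (σ b) r * w b := by
  classical
  set B : Finset κ := T.filter fun c => f c ∉ span F (f '' {c' | c' ∈ T ∧ τ c' < τ c}) with hB
  have hBT : B ⊆ T := Finset.filter_subset _ _
  -- every column is in the span of the earlier chosen ones
  have h1 : ∀ n, ∀ c ∈ T, τ c = n → f c ∈ span F (f '' {b | b ∈ B ∧ τ b ≤ τ c}) := by
    intro n
    induction n using Nat.strong_induction_on with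
    | _ n ih =>
      intro c hc hcn
      by_cases hcB : c ∈ B
      · exact subset_span ⟨c, ⟨hcB, le_rfl⟩, rfl⟩
      · have h2 : f c ∈ span F (f '' {c' | c' ∈ T ∧ τ c' < τ c}) := by
          by_contra h3
          exact hcB (Finset.mem_filter.2 ⟨hc, h3⟩)
        refine (span_le.2 ?_) h2
        rintro _ ⟨c', ⟨hc', hlt⟩, rfl⟩
        have h3 := ih (τ c') (hcn ▸ hlt) c' hc' rfl
        refine span_mono ?_ h3
        rintro _ ⟨b, ⟨hb, hbc⟩, rfl⟩
        exact ⟨b, ⟨hb, hbc.trans hlt.le⟩, rfl⟩
  have h1' : ∀ c ∈ T, f c ∈ span F (f '' {b | b ∈ B ∧ τ b ≤ τ c}) := fun c hc => h1 _ c hc rfl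
  -- independence
  have hli : LinearIndependent F (fun b : B => f b) := by
    rw [linearIndependent_iff']
    intro s g hg
    by_contra hne
    push Not at hne
    obtain ⟨i0, hi0, hgi0⟩ := hne
    obtain ⟨m, hm, hmax⟩ := Finset.exists_max_image (s.filter fun i => g i ≠ 0)
      (fun i => τ (i : κ)) ⟨i0, Finset.mem_filter.2 ⟨hi0, hgi0⟩⟩
    obtain ⟨hms, hgm⟩ := Finset.mem_filter.1 hm
    have hmem : f (m : κ) ∈ span F (f '' {c' | c' ∈ T ∧ τ c' < τ (m : κ)}) := by
      have h4 : f (m : κ) = -(g m)⁻¹ • ∑ i ∈ s.erase m, g i • f (i : κ) := by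
        have h5 : g m • f (m : κ) + ∑ i ∈ s.erase m, g i • f (i : κ) = 0 := by
          rw [Finset.add_sum_erase s (fun i => g i • f (i : κ)) hms]; exact hg
        have h6 : ∑ i ∈ s.erase m, g i • f (i : κ) = -(g m • f (m : κ)) :=
          eq_neg_of_add_eq_zero_right h5
        rw [h6, smul_neg, neg_smul, neg_neg, smul_smul, inv_mul_cancel₀ hgm, one_smul]
      rw [h4]
      refine smul_mem _ _ (sum_mem fun i hi => ?_)
      by_cases hgi : g i = 0
      · rw [hgi, zero_smul]; exact zero_mem _
      · obtain ⟨hne, his⟩ := Finset.mem_erase.1 hi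
        refine smul_mem _ _ (subset_span ⟨i, ⟨hBT i.2, ?_⟩, rfl⟩)
        have h7 := hmax i (Finset.mem_filter.2 ⟨his, hgi⟩)
        refine lt_of_le_of_ne h7 fun h8 => hne ?_
        exact Subtype.ext (hτ h8)
    exact (Finset.mem_filter.1 m.2).2 hmem
  -- spanning
  have hsp : (⊤ : Submodule F (ι → F)) ≤ span F (Set.range fun b : B => f b) := by
    by_contra hnot
    have hlt : span F (Set.range fun b : B => f b) < ⊤ :=
      lt_of_le_of_ne le_top fun h => hnot (le_of_eq h.symm)
    obtain ⟨φ, hφ, hker⟩ := Submodule.exists_le_ker_of_lt_top _ hlt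
    apply hφ
    have hval : ∀ y : ι → F, φ y = ∑ r, φ (Pi.single r 1) * y r := by
      intro y
      have h9 : y = ∑ r, y r • (Pi.single r (1 : F) : ι → F) := by
        rw [← pi_eq_sum_univ' y]
      conv_lhs => rw [h9]
      rw [map_sum]
      exact Finset.sum_congr rfl fun r _ => by rw [map_smul, smul_eq_mul, mul_comm]
    have hv0 : (fun r => φ (Pi.single r 1)) = 0 := by
      apply hs
      intro c hc
      rw [← hval (f c)]
      have h10 : f c ∈ span F (Set.range fun b : B => f b) := by
        refine span_mono ?_ (h1' c hc)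
        rintro _ ⟨b, ⟨hb, _⟩, rfl⟩
        exact ⟨⟨b, hb⟩, rfl⟩
      exact LinearMap.mem_ker.1 (hker h10)
    apply LinearMap.ext
    intro y
    rw [hval y]
    have : ∀ r, φ (Pi.single r 1) = 0 := fun r => congrFun hv0 r
    simp [this]
  let bas : Module.Basis B F (ι → F) := Module.Basis.mk hli hsp
  have hcard : Fintype.card ι = Fintype.card B := by
    have := Module.finrank_eq_card_basis bas
    rw [← this, Module.finrank_fintype_fun_eq_card]
  let e : ι ≃ B := Fintype.equivOfCardEq hcard
  refine ⟨fun a => (e a : κ), ?_, fun a => hBT (e a).2, ?_, ?_⟩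
  · intro a b hab
    exact e.injective (Subtype.ext hab)
  · have hli2 : LinearIndependent F (fun a : ι => f (e a : κ)) :=
      hli.comp e e.injective
    have h11 : IsUnit (Matrix.of fun (a : ι) r => f (e a : κ) r) := by
      rw [← Matrix.linearIndependent_rows_iff_isUnit]
      exact hli2
    rw [Matrix.isUnit_iff_isUnit_det] at h11
    have h12 : (Matrix.of fun r a => f (e a : κ) r).det
        = (Matrix.of fun (a : ι) r => f (e a : κ) r).det := by
      rw [← Matrix.det_transpose]
      rfl
    rw [h12]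
    exact h11.ne_zero
  · intro c hc
    have h13 := h1' c hc
    have h14 : f c ∈ span F (Set.range fun a : {a : ι // τ (e a : κ) ≤ τ c} =>
        f (e a.1 : κ)) := by
      refine span_mono ?_ h13
      rintro _ ⟨b, ⟨hb, hbc⟩, rfl⟩
      refine ⟨⟨e.symm ⟨b, hb⟩, ?_⟩, ?_⟩
      · simpa using hbc
      · simp
    obtain ⟨w, hw⟩ := (Submodule.mem_span_range_iff_exists_fun F).1 h14
    refine ⟨fun a => if h : τ (e a : κ) ≤ τ c then w ⟨a, h⟩ else 0, ?_, ?_⟩
    · intro b hb
      exact dif_neg (not_le.2 hb)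
    · intro r
      set w' : ι → F := fun a => if h : τ (e a : κ) ≤ τ c then w ⟨a, h⟩ else 0 with hw'
      have h15 : ∑ a ∈ Finset.univ.filter (fun a => τ (e a : κ) ≤ τ c), f (e a : κ) r * w' a
          = ∑ a : {a : ι // τ (e a : κ) ≤ τ c}, f (e a.1 : κ) r * w' a.1 :=
        Finset.sum_subtype _ (by simp) _
      have h16 : ∑ a ∈ Finset.univ.filter (fun a => τ (e a : κ) ≤ τ c), f (e a : κ) r * w' a
          = ∑ a, f (e a : κ) r * w' a := by
        apply Finset.sum_subset (Finset.subset_univ _)
        intro a _ ha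
        have h17 : ¬ τ (e a : κ) ≤ τ c := fun h => ha (Finset.mem_filter.2 ⟨Finset.mem_univ _, h⟩)
        rw [hw']
        simp only
        rw [dif_neg h17, mul_zero]
      rw [← h16, h15, ← hw, Finset.sum_apply]
      refine Finset.sum_congr rfl fun a _ => ?_
      have h18 : w' a.1 = w a := by
        rw [hw']
        simp only
        rw [dif_pos a.2]
      rw [h18, Pi.smul_apply, smul_eq_mul, mul_comm]

end Vale.Agent.P030.T
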