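import Vale.Agent.P030.T.Defs
import Vale.Agent.P030.T.Greedy

/-!
# P030, frame T: the statements NV, AR, OD, TW and the deduction of the irrationality of `G`
-/

open PowerSeries

namespace Vale.Agent.P030.T

/-- parameters of a design: `D = D0 s` rows per function, heights `ht g * s` -/
structure Par where
  D0 : ℕ
  ht : Gp → ℕ

/-- admissible choices of columns: all different, of height less than `ht g * s + c0` -/
def Adm (P : Par) (c0 s : ℕ) (σ : Fin (P.D0 * s) × Fin 8 → Cl) : Prop :=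
  Function.Injective σ ∧ ∀ c, (σ c).2 < P.ht (σ c).1 * s + c0

/-- entries: row `r = (i, j)`, column `c = (g, k)` -/
noncomputable def En {R : Type*} [Field R] [Algebra ℚ R] (D : ℕ) (x : R) (r : Fin D × Fin 8)
    (c : Cl) : R :=
  algebraMap ℚ R (ent0 D c.1 c.2 r.1 r.2) + x * algebraMap ℚ R (ent1 D c.1 c.2 r.1 r.2)

theorem Mx_apply {R : Type*} [Field R] [Algebra ℚ R] (D : ℕ) (x : R)
    (σ : Fin D × Fin 8 → Cl) (r a) : Mx D x σ r a = En D x r (σ a) := rfl

/-- `σ` is flagged for the time order `τ`: every column of the pool is a combination of chosen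
columns which are not later -/
def Flg {R : Type*} [Field R] [Algebra ℚ R] (P : Par) (c0 s : ℕ) (τ : Cl → ℕ) (x : R)
    (σ : Fin (P.D0 * s) × Fin 8 → Cl) : Prop :=
  ∀ c : Cl, c.2 < P.ht c.1 * s + c0 → ∃ w : Fin (P.D0 * s) × Fin 8 → R,
    (∀ b, τ c < τ (σ b) → w b = 0) ∧
      ∀ r, En (P.D0 * s) x r c = ∑ b, En (P.D0 * s) x r (σ b) * w b

/-- NV: for rational `x` some admissible minor does not vanish -/
def StNV (P : Par) (c0 : ℕ) : Prop :=
  ∀ x : ℚ, ∃ s0 : ℕ, ∀ s, s0 ≤ s → ∃ σ, Adm P c0 s σ ∧ (Mx (P.D0 * s) x σ).det ≠ 0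

/-- ZE (zero estimate): for rational `x` only the zero row vector is killed by all columns of the
pool.  `nv_of_ze` : ZE implies NV. -/
def StZE (P : Par) (c0 : ℕ) : Prop :=
  ∀ x : ℚ, ∃ s0 : ℕ, ∀ s, s0 ≤ s → ∀ v : Fin (P.D0 * s) × Fin 8 → ℚ,
    (∀ c : Cl, c.2 < P.ht c.1 * s + c0 → ∑ r, v r * En (P.D0 * s) x r c = 0) → v = 0

/-- AR: the archimedean bound at `x = G/2`, all choices -/
def StAR (P : Par) (c0 : ℕ) (A : ℝ) : Prop :=
  ∀ ε : ℝ, 0 < ε → ∃ s0 : ℕ, ∀ s, s0 ≤ s → ∀ σ, Adm P c0 s σ →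
    |(Mx (P.D0 * s) (Gc / 2) σ).det| ≤ Real.exp (-(A - ε) * (s : ℝ) ^ 2)

/-- AF: the archimedean bound at `x = G/2`, for choices which are flagged for some time order -/
def StAF (P : Par) (c0 : ℕ) (A : ℝ) : Prop :=
  ∀ ε : ℝ, 0 < ε → ∃ s0 : ℕ, ∀ s, s0 ≤ s → ∃ τ : Cl → ℕ, Function.Injective τ ∧
    ∀ σ, Adm P c0 s σ → Flg P c0 s τ (Gc / 2) σ →
    |(Mx (P.D0 * s) (Gc / 2) σ).det| ≤ Real.exp (-(A - ε) * (s : ℝ) ^ 2)

/-- OD: the denominators at the odd primes -/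
def StOD (P : Par) (c0 : ℕ) (B : ℝ) : Prop :=
  ∀ x : ℚ, ∀ ε : ℝ, 0 < ε → ∃ s0 : ℕ, ∀ s, s0 ≤ s → ∃ (S : Finset ℕ) (c : ℕ → ℤ),
    (∀ p ∈ S, p.Prime ∧ p ≠ 2) ∧ (∑ p ∈ S, (c p : ℝ) * Real.log p ≤ (B + ε) * (s : ℝ) ^ 2) ∧
    ∀ σ, Adm P c0 s σ → (Mx (P.D0 * s) x σ).det ≠ 0 → ∀ p : ℕ, p.Prime → p ≠ 2 →
      (if p ∈ S then -c p else 0) ≤ padicValRat p (Mx (P.D0 * s) x σ).det

/-- TWO: the power of two -/
def StTW (P : Par) (c0 : ℕ) (B : ℝ) : Prop :=
  ∀ x : ℚ, ∀ ε : ℝ, 0 < ε → ∃ s0 : ℕ, ∀ s, s0 ≤ s → ∀ σ, Adm P c0 s σ →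
    (Mx (P.D0 * s) x σ).det ≠ 0 →
    -(padicValRat 2 (Mx (P.D0 * s) x σ).det : ℝ) * Real.log 2 ≤ (B + ε) * (s : ℝ) ^ 2

/-- a nonzero rational number with prescribed denominators is not small -/
theorem log_ge_of_val {d : ℚ} (hd : d ≠ 0) (S : Finset ℕ) (c : ℕ → ℤ)
    (hS : ∀ p ∈ S, p.Prime)
    (h : ∀ p : ℕ, p.Prime → (if p ∈ S then -c p else 0) ≤ padicValRat p d) :
    -∑ p ∈ S, (c p : ℝ) * Real.log p ≤ Real.log |(d : ℝ)| := by
  classical
  set m : ℚ := ∏ p ∈ S, (p : ℚ) ^ c p with hm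
  have hm0 : m ≠ 0 := Finset.prod_ne_zero_iff.2 fun p hp =>
    zpow_ne_zero _ (by exact_mod_cast (hS p hp).ne_zero)
  have hval : ∀ q : ℕ, q.Prime → padicValRat q m = if q ∈ S then c q else 0 := by
    intro q hq
    have := Fact.mk hq
    have key : ∀ T : Finset ℕ, (∀ p ∈ T, p.Prime) →
        padicValRat q (∏ p ∈ T, (p : ℚ) ^ c p) = if q ∈ T then c q else 0 := by
      intro T
      induction T using Finset.induction_on with
      | empty => intro _; simp
      | insert a T ha ih =>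
        intro hT
        have hTp : ∀ p ∈ T, p.Prime := fun p hp => hT p (Finset.mem_insert_of_mem hp)
        have hap := hT a (Finset.mem_insert_self _ _)
        rw [Finset.prod_insert ha, padicValRat.mul
          (zpow_ne_zero _ (by exact_mod_cast hap.ne_zero))
          (Finset.prod_ne_zero_iff.2 fun p hp =>
            zpow_ne_zero _ (by exact_mod_cast (hTp p hp).ne_zero)), ih hTp, padicValRat.zpow]
        by_cases hqa : q = a
        · subst hqa
          simp [ha, padicValRat.self hq.one_lt]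
        · have h1 : padicValRat q (a : ℚ) = 0 := by
            rw [padicValRat.of_nat]
            have : padicValNat q a = 0 := by
              apply padicValNat.eq_zero_of_not_dvd
              intro hdvd
              exact hqa ((Nat.prime_dvd_prime_iff_eq hq hap).1 hdvd)
            rw [this]; rfl
          rw [h1]
          simp [Finset.mem_insert, hqa]
    exact key S hS
  set e : ℚ := d * m with he
  have he0 : e ≠ 0 := mul_ne_zero hd hm0
  have hev : ∀ q : ℕ, q.Prime → 0 ≤ padicValRat q e := by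
    intro q hq
    have := Fact.mk hq
    rw [he, padicValRat.mul hd hm0, hval q hq]
    have := h q hq
    split_ifs with hqS
    · rw [if_pos hqS] at this; linarith
    · rw [if_neg hqS] at this; linarith
  have hden : e.den = 1 := by
    by_contra hne
    obtain ⟨q, hq, hqd⟩ := Nat.exists_prime_and_dvd hne
    have := Fact.mk hq
    have h1 := hev q hq
    have h2 : padicValInt q e.num = 0 := by
      apply padicValInt.eq_zero_of_not_dvd
      intro hn
      have hc := e.reduced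
      have : q ∣ Nat.gcd e.num.natAbs e.den := Nat.dvd_gcd (Int.natCast_dvd.1 hn) hqd
      rw [hc] at this
      exact hq.one_lt.ne' (Nat.dvd_one.1 this)
    have h3 : 1 ≤ padicValNat q e.den := one_le_padicValNat_of_dvd e.den_nz hqd
    unfold padicValRat at h1
    rw [h2] at h1
    omega
  have hint : (e.num : ℚ) = e := Rat.coe_int_num_of_den_eq_one hden
  have habs : (1 : ℝ) ≤ |(e : ℝ)| := by
    have hn0 : e.num ≠ 0 := Rat.num_ne_zero.2 he0
    have h1 : (1 : ℤ) ≤ |e.num| := Int.one_le_abs hn0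
    have h2 : (e : ℝ) = (e.num : ℝ) := by
      rw [← hint]; simp
    rw [h2, ← Int.cast_abs]
    exact_mod_cast h1
  have hlog : 0 ≤ Real.log |(e : ℝ)| := Real.log_nonneg habs
  have hdR : (d : ℝ) ≠ 0 := by exact_mod_cast hd
  have hmR : (m : ℝ) ≠ 0 := by exact_mod_cast hm0
  have hprod : (e : ℝ) = (d : ℝ) * (m : ℝ) := by rw [he]; push_cast; ring
  rw [hprod, abs_mul, Real.log_mul (abs_ne_zero.2 hdR) (abs_ne_zero.2 hmR)] at hlog
  have hlm : Real.log |(m : ℝ)| = ∑ p ∈ S, (c p : ℝ) * Real.log p := by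
    rw [Real.log_abs, hm]
    push_cast
    rw [Real.log_prod (fun p hp => by
      have := (hS p hp).ne_zero
      exact zpow_ne_zero _ (by exact_mod_cast this))]
    exact Finset.sum_congr rfl fun p _ => Real.log_zpow _ _
  rw [hlm] at hlog
  linarith

/-- the determinant at a rational point, seen in `ℝ` -/
theorem det_cast (D : ℕ) (x : ℚ) (σ : Fin D × Fin 8 → Cl) :
    (((Mx D x σ).det : ℚ) : ℝ) = (Mx D (x : ℝ) σ).det := by
  have : (Mx D (x : ℝ) σ) = (Mx D x σ).map (algebraMap ℚ ℝ) := by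
    ext r c
    simp [Mx]
  rw [this, ← RingHom.mapMatrix_apply, ← RingHom.map_det]
  rfl

theorem En_cast (D : ℕ) (x : ℚ) (r : Fin D × Fin 8) (c : Cl) :
    ((En D x r c : ℚ) : ℝ) = En D (x : ℝ) r c := by
  simp [En]

theorem Flg_cast {P : Par} {c0 s : ℕ} {τ : Cl → ℕ} {x : ℚ} {σ : Fin (P.D0 * s) × Fin 8 → Cl}
    (h : Flg P c0 s τ x σ) : Flg P c0 s τ (x : ℝ) σ := by
  intro c hc
  obtain ⟨w, hw0, hw⟩ := h c hc
  refine ⟨fun b => (w b : ℝ), fun b hb => by simp [hw0 b hb], fun r => ?_⟩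
  rw [← En_cast, hw r]
  push_cast
  exact Finset.sum_congr rfl fun b _ => by rw [En_cast]

theorem exists_injective_nat (α : Type) [Countable α] : ∃ τ : α → ℕ, Function.Injective τ :=
  Countable.exists_injective_nat α

instance : Fintype Gp :=
  ⟨{.z1, .zl, .z8, .zab, .w1, .wl, .wy, .w8, .wab, .wf7, .v2, .vl, .v8, .vb, .x2, .xl, .x1},
    fun g => by cases g <;> decide⟩

/-- the pool of columns -/
def pool (P : Par) (c0 s : ℕ) : Finset Cl :=
  Finset.univ.biUnion fun g : Gp => (Finset.range (P.ht g * s + c0)).image fun k => (g, k)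

theorem mem_pool {P : Par} {c0 s : ℕ} {c : Cl} :
    c ∈ pool P c0 s ↔ c.2 < P.ht c.1 * s + c0 := by
  obtain ⟨g, k⟩ := c
  simp [pool]

/-- greedy choice -/
theorem exists_flagged {P : Par} {c0 s : ℕ} (x : ℚ) (τ : Cl → ℕ) (hτ : Function.Injective τ)
    (h : ∀ v : Fin (P.D0 * s) × Fin 8 → ℚ,
      (∀ c : Cl, c.2 < P.ht c.1 * s + c0 → ∑ r, v r * En (P.D0 * s) x r c = 0) → v = 0) :
    ∃ σ, Adm P c0 s σ ∧ Flg P c0 s τ x σ ∧ (Mx (P.D0 * s) x σ).det ≠ 0 := by
  obtain ⟨σ, h1, h2, h3, h4⟩ := greedy (pool P c0 s) τ hτ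
    (fun c r => En (P.D0 * s) x r c) fun v hv => h v fun c hc => hv c (mem_pool.2 hc)
  exact ⟨σ, ⟨h1, fun c => mem_pool.1 (h2 c)⟩, fun c hc => h4 c (mem_pool.2 hc), h3⟩

theorem nv_of_ze {P : Par} {c0 : ℕ} (h : StZE P c0) : StNV P c0 := by
  intro x
  obtain ⟨s0, h0⟩ := h x
  refine ⟨s0, fun s hs => ?_⟩
  obtain ⟨τ, hτ⟩ : ∃ τ : Cl → ℕ, Function.Injective τ := exists_injective_nat Cl
  obtain ⟨σ, h1, _, h3⟩ := exists_flagged x τ hτ (h0 s hs)
  exact ⟨σ, h1, h3⟩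

/-- a nonzero admissible minor gives the zero estimate -/
theorem ze_of_nv {P : Par} {c0 : ℕ} (h : StNV P c0) : StZE P c0 := by
  intro x
  obtain ⟨s0, h0⟩ := h x
  refine ⟨s0, fun s hs v hv => ?_⟩
  obtain ⟨σ, h1, h3⟩ := h0 s hs
  have h4 : Matrix.vecMul v (Mx (P.D0 * s) x σ) = 0 := by
    funext a
    exact hv (σ a) (h1.2 a)
  exact Matrix.eq_zero_of_vecMul_eq_zero h3 h4

/-- **the deduction** -/
theorem irrational_of_flagged {P : Par} {c0 : ℕ} {A B B2 : ℝ} (hNV : StZE P c0)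
    (hAR : StAF P c0 A)
    (hOD : StOD P c0 B) (hTW : StTW P c0 B2) (hnum : B + B2 < A) :
    Irrational (∑' j : ℕ, (-1 : ℝ) ^ j / (2 * (j : ℝ) + 1) ^ 2) := by
  classical
  change Irrational Gc
  intro hrat
  obtain ⟨q, hq⟩ := hrat
  set x : ℚ := q / 2 with hx
  have hxG : ((x : ℚ) : ℝ) = Gc / 2 := by rw [hx, ← hq]; push_cast; ring
  set ε := (A - B - B2) / 4 with hε
  have hε0 : 0 < ε := by rw [hε]; linarith
  obtain ⟨s1, h1⟩ := hNV x
  obtain ⟨s2, h2⟩ := hAR ε hε0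
  obtain ⟨s3, h3⟩ := hOD x ε hε0
  obtain ⟨s4, h4⟩ := hTW x ε hε0
  set s := max (max s1 s2) (max s3 (max s4 1)) with hs
  have hs1 : s1 ≤ s := le_trans (le_max_left _ _) (le_max_left _ _)
  have hs2 : s2 ≤ s := le_trans (le_max_right _ _) (le_max_left _ _)
  have hs3 : s3 ≤ s := le_trans (le_max_left _ _) (le_max_right _ _)
  have hs4 : s4 ≤ s := le_trans (le_max_left _ _) (le_trans (le_max_right _ _) (le_max_right _ _))
  have hs5 : 1 ≤ s := le_trans (le_max_right _ _) (le_trans (le_max_right _ _) (le_max_right _ _))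
  obtain ⟨τ, hτ, hAτ⟩ := h2 s hs2
  obtain ⟨σ, hσ, hfl, hdet⟩ := exists_flagged x τ hτ (h1 s hs1)
  have hA := hAτ σ hσ (hxG ▸ Flg_cast hfl)
  obtain ⟨S, c, hSp, hSs, hSv⟩ := h3 s hs3
  have hB2 := h4 s hs4 σ hσ hdet
  set d := (Mx (P.D0 * s) x σ).det with hd
  have h2S : 2 ∉ S := fun h => (hSp 2 h).2 rfl
  have hlow := log_ge_of_val hdet (insert 2 S)
    (fun p => if p = 2 then -padicValRat 2 d else c p)
    (by
      intro p hp
      rcases Finset.mem_insert.1 hp with h | h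
      · rw [h]; exact Nat.prime_two
      · exact (hSp p h).1)
    (by
      intro p hp
      by_cases hp2 : p = 2
      · subst hp2
        simp
      · have := hSv σ hσ hdet p hp hp2
        simp only [Finset.mem_insert, hp2, false_or, if_false]
        exact this)
  rw [Finset.sum_insert h2S] at hlow
  have e1 : ∑ p ∈ S, (((if p = 2 then -padicValRat 2 d else c p : ℤ)) : ℝ) * Real.log p
      = ∑ p ∈ S, (c p : ℝ) * Real.log p := by
    refine Finset.sum_congr rfl fun p hp => ?_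
    rw [if_neg (hSp p hp).2]
  rw [e1] at hlow
  simp only [if_true] at hlow
  push_cast at hlow
  have hdR : |(d : ℝ)| ≤ Real.exp (-(A - ε) * (s : ℝ) ^ 2) := by
    rw [hd, det_cast, hxG]; exact hA
  have hd0 : 0 < |(d : ℝ)| := abs_pos.2 (by exact_mod_cast hdet)
  have hup : Real.log |(d : ℝ)| ≤ -(A - ε) * (s : ℝ) ^ 2 := by
    rw [← Real.log_exp (-(A - ε) * (s : ℝ) ^ 2)]
    exact Real.log_le_log hd0 hdR
  have hsq : (1 : ℝ) ≤ (s : ℝ) ^ 2 := by
    have : (1 : ℝ) ≤ s := by exact_mod_cast hs5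
    nlinarith
  have hfin : 0 ≤ (-(A - ε) + (B + ε) + (B2 + ε)) * (s : ℝ) ^ 2 := by
    nlinarith
  have hneg : (-(A - ε) + (B + ε) + (B2 + ε)) < 0 := by rw [hε]; linarith
  nlinarith

theorem af_of_ar {P : Par} {c0 : ℕ} {A : ℝ} (h : StAR P c0 A) : StAF P c0 A := by
  intro ε hε
  obtain ⟨s0, h0⟩ := h ε hε
  obtain ⟨τ, hτ⟩ : ∃ τ : Cl → ℕ, Function.Injective τ := exists_injective_nat Cl
  exact ⟨s0, fun s hs => ⟨τ, hτ, fun σ hσ _ => h0 s hs σ hσ⟩⟩

theorem irrational_of {P : Par} {c0 : ℕ} {A B B2 : ℝ} (hNV : StNV P c0) (hAR : StAR P c0 A)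
    (hOD : StOD P c0 B) (hTW : StTW P c0 B2) (hnum : B + B2 < A) :
    Irrational (∑' j : ℕ, (-1 : ℝ) ^ j / (2 * (j : ℝ) + 1) ^ 2) :=
  irrational_of_flagged (ze_of_nv hNV) (af_of_ar hAR) hOD hTW hnum

end Vale.Agent.P030.T
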