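import Vale.Agent.P030.T.LadSum

/-!
# P030, ladder bound: one level

`Good ι T v W E` : every determinant whose columns are nodes of `T` is at most `exp (Σ W - E)`.
`step_core` : one level, fixed wall.  `step` : one level, the wall may depend on the nodes.
-/

open Finset Matrix

namespace Vale.Agent.P030.T.Lad

/-- the determinants of the nodes `T` (vectors `v`, weights `W`) are bounded with energy `E` -/
def Good (ι : Type) [Fintype ι] [DecidableEq ι] (T : Type) (v : T → ι → ℂ) (W : T → ℝ)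
    (E : ℝ) : Prop :=
  ∀ y : ι → T, ‖(of fun r c => v (y c) r : Matrix ι ι ℂ).det‖ ≤ Real.exp (∑ c, W (y c) - E)

/-- energy inequality of one level -/
def Energy (D : ℕ) (Wb : ℂ → ℝ) (Eb η : ℝ) (N : ℕ) : Prop :=
  ∀ m, m + D ≤ N → ∀ (a : Fin (m + D) → ℂ) (x : Fin m → ℂ), (∀ j i, η ≤ ‖x j - a i‖) →
    vd a * vd x * ∏ j, ∏ i, ‖x j - a i‖⁻¹ ≤ Real.exp (∑ i, Wb (a i) - ∑ j, Wb (x j) - Eb)

section
variable {ι : Type} [Fintype ι] [DecidableEq ι] {T' : Type} {D : ℕ}

/-- column of a node at `p` with the given rest -/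
def colp (D : ℕ) (p : ℂ) (g : ι → ℂ) : Fin D ⊕ ι → ℂ := Sum.elim (fun k => p ^ (k : ℕ)) g

/-- column of a higher node -/
def colt (D : ℕ) (g : ι → ℂ) : Fin D ⊕ ι → ℂ := Sum.elim (fun _ => 0) g

/-- the rest vector given by the sources -/
noncomputable def srcg {nq : ℕ} (v' : T' → ι → ℂ) (q : ι → Polynomial ℂ) (w x : Fin nq → ℂ)
    (t : Fin nq → T') (p : ℂ) : ι → ℂ :=
  fun r => (q r).eval p + ∑ j, w j * v' (t j) r / (x j - p)

/-- columns of a configuration with fixed wall -/
noncomputable def colk {nq : ℕ} (D : ℕ) (v' : T' → ι → ℂ) (q : ι → Polynomial ℂ)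
    (w x : Fin nq → ℂ) (t : Fin nq → T') : ℂ ⊕ T' → Fin D ⊕ ι → ℂ
  | .inl p => colp D p (srcg v' q w x t p)
  | .inr u => colt D (v' u)

theorem step_core {v' : T' → ι → ℂ} {W' : T' → ℝ} {E' : ℝ} (hG : Good ι T' v' W' E')
    {Wb : ℂ → ℝ} {Eb η δ C : ℝ} (hη : 0 < η) (hC : 1 ≤ C) (hδ : 0 ≤ δ)
    (hE : Energy D Wb Eb η (D + Fintype.card ι))
    {nq : ℕ} (q : ι → Polynomial ℂ) (w x : Fin nq → ℂ) (t : Fin nq → T')
    (hq : ∀ r, (q r).degree < D) (hw : ∑ j, ‖w j‖ ≤ C) (ht : ∀ j, W' (t j) ≤ Wb (x j) + δ)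
    (y : Fin D ⊕ ι → ℂ ⊕ T') (hx : ∀ c p, y c = Sum.inl p → ∀ j, η ≤ ‖x j - p‖) :
    ‖(of fun r c => colk D v' q w x t (y c) r :
        Matrix (Fin D ⊕ ι) (Fin D ⊕ ι) ℂ).det‖ ≤
      C ^ (D + Fintype.card ι) * Real.exp (∑ c, Sum.elim Wb W' (y c) - (E' + Eb)
        + (D + Fintype.card ι : ℕ) * δ) := by
  classical
  set K := D + Fintype.card ι with hK
  have hKJ : Fintype.card (Fin D ⊕ ι) = K := by simp [hK]
  -- positions
  let pr : Fin D ⊕ ι → Prop := fun c => ∃ p, y c = Sum.inl p
  let S := {c : Fin D ⊕ ι // pr c}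
  let κ := {c : Fin D ⊕ ι // ¬ pr c}
  have hcard : Fintype.card S + Fintype.card κ = K := by
    rw [← hKJ, ← Fintype.card_sum]
    exact Fintype.card_congr (Equiv.sumCompl pr)
  set M : Matrix (Fin D ⊕ ι) (Fin D ⊕ ι) ℂ :=
    of fun r c => colk D v' q w x t (y c) r with hM
  have hpos : 0 ≤ C ^ K * Real.exp (∑ c, Sum.elim Wb W' (y c) - (E' + Eb) + (K : ℕ) * δ) := by
    positivity
  by_cases hn : Fintype.card S < D
  · -- too few nodes : the determinant vanishes
    have h0 : M.det = 0 := by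
      by_contra hne
      -- the first `D` rows are independent but supported on `S`
      have hli : LinearIndependent ℂ M.row := by
        rw [Matrix.linearIndependent_rows_iff_isUnit, Matrix.isUnit_iff_isUnit_det]
        exact isUnit_iff_ne_zero.2 hne
      have hli2 : LinearIndependent ℂ fun k : Fin D => M.row (Sum.inl k) :=
        hli.comp Sum.inl Sum.inl_injective
      -- restrict to `S`
      let ρ : (Fin D ⊕ ι → ℂ) →ₗ[ℂ] (S → ℂ) := LinearMap.funLeft ℂ ℂ fun s : S => (s : Fin D ⊕ ι)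
      have hli3 : LinearIndependent ℂ fun k : Fin D => ρ (M.row (Sum.inl k)) := by
        rw [Fintype.linearIndependent_iff] at hli2 ⊢
        intro c hc
        apply hli2 c
        funext s
        rcases h : y s with p | u
        · have := congrFun hc ⟨s, p, h⟩
          simpa [ρ, Finset.sum_apply, LinearMap.funLeft_apply] using this
        · simp [hM, h, colk, colt, Matrix.row, Finset.sum_apply]
      have h1 := hli3.fintype_card_le_finrank
      rw [Fintype.card_fin, Module.finrank_fintype_fun_eq_card] at h1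
      omega
    rw [h0, norm_zero]
    exact hpos
  push Not at hn
  obtain ⟨m, hm⟩ : ∃ m, Fintype.card S = m + D := ⟨Fintype.card S - D, by omega⟩
  have hmκ : Fintype.card ι = m + Fintype.card κ := by omega
  let eS : S ≃ Fin (m + D) := Fintype.equivFinOfCardEq hm
  let e0 : Fin D ⊕ ι ≃ S ⊕ κ := (Equiv.sumCompl pr).symm
  let e : Fin D ⊕ ι ≃ Fin (m + D) ⊕ κ := e0.trans (Equiv.sumCongr eS (Equiv.refl κ))
  obtain ⟨ε⟩ : Nonempty (ι ≃ Fin m ⊕ κ) := by
    refine ⟨Fintype.equivOfCardEq ?_⟩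
    rw [Fintype.card_sum, Fintype.card_fin]; exact hmκ
  -- data of the nodes
  let a : Fin (m + D) → ℂ := fun i => (eS.symm i).2.choose
  have ha : ∀ i, y (eS.symm i).1 = Sum.inl (a i) := fun i => (eS.symm i).2.choose_spec
  have hu0 : ∀ c : κ, ∃ u, y c.1 = Sum.inr u := by
    intro c
    rcases h : y c.1 with p | u
    · exact absurd ⟨p, h⟩ c.2
    · exact ⟨u, rfl⟩
  let u : κ → T' := fun c => (hu0 c).choose
  have hu : ∀ c : κ, y c.1 = Sum.inr (u c) := fun c => (hu0 c).choose_spec
  set G : Matrix ι (Fin (m + D)) ℂ := of fun r i => srcg v' q w x t (a i) r with hGm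
  set O : Matrix ι κ ℂ := of fun r c => v' (u c) r with hO
  have hMe : M = (fromBlocks (of fun (j : Fin D) i => a i ^ (j : ℕ)) 0 G O).submatrix id e := by
    ext r c
    obtain ⟨c', rfl⟩ := e.symm.surjective c
    rw [submatrix_apply, Equiv.apply_symm_apply]
    rcases c' with i | c'
    · have h1 : e.symm (Sum.inl i) = (eS.symm i).1 := rfl
      rw [hM, of_apply, h1, ha]
      rcases r with k | r
      · simp [colk, colp]
      · simp [colk, colp, hGm]
    · have h1 : e.symm (Sum.inr c') = c'.1 := rfl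
      rw [hM, of_apply, h1, hu]
      rcases r with k | r
      · simp [colk, colt]
      · simp [colk, colt, hO]
  by_cases hinj : Function.Injective a
  swap
  · -- equal positions : equal columns
    obtain ⟨i, j, hij, hne⟩ : ∃ i j, a i = a j ∧ i ≠ j := by
      unfold Function.Injective at hinj; push Not at hinj
      obtain ⟨i, j, h1, h2⟩ := hinj; exact ⟨i, j, h1, h2⟩
    have h0 : M.det = 0 := by
      refine det_zero_of_column_eq (i := (eS.symm i).1) (j := (eS.symm j).1) ?_ ?_
      · intro h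
        exact hne (eS.symm.injective (Subtype.ext h))
      · intro r
        rw [hM, of_apply, of_apply, ha, ha, hij]
    rw [h0, norm_zero]
    exact hpos
  rw [hMe, elim_eq hinj G O e ε]
  -- the new columns
  have hB : (fromCols (of fun r (k : Fin m) => ∑ i, nw a i * a i ^ (k : ℕ) * G r i)
      O).submatrix id ε = (fromCols (of fun r (k : Fin m) =>
        (fun (k : Fin m) (r : ι) => ∑ j, w j * (∏ i, (x j - a i))⁻¹ * x j ^ (k : ℕ)
          * v' (t j) r) k r) O).submatrix id ε := by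
    congr 2
    ext r k
    simp only [of_apply]
    have hk : (k : ℕ) < m + D := by have := k.2; omega
    have h1 : ∑ i, nw a i * a i ^ (k : ℕ) * G r i
        = ∑ i, nw a i * (Polynomial.X ^ (k : ℕ) * q r).eval (a i)
          + ∑ j, w j * v' (t j) r * ∑ i, nw a i * a i ^ (k : ℕ) / (x j - a i) := by
      simp_rw [Finset.mul_sum]
      rw [Finset.sum_comm (s := (univ : Finset (Fin nq))), ← Finset.sum_add_distrib]
      refine Finset.sum_congr rfl fun i _ => ?_
      simp only [hGm, of_apply, srcg, Polynomial.eval_mul, Polynomial.eval_pow,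
        Polynomial.eval_X, mul_add, Finset.mul_sum]
      congr 1
      · ring
      · refine Finset.sum_congr rfl fun j _ => ?_
        ring
    rw [h1]
    have h2 : ∑ i, nw a i * (Polynomial.X ^ (k : ℕ) * q r).eval (a i) = 0 := by
      have hqc : ∀ j, D ≤ j → (q r).coeff j = 0 := fun j hj =>
        Polynomial.coeff_eq_zero_of_degree_lt (lt_of_lt_of_le (hq r) (by exact_mod_cast hj))
      have h3 : ∀ j, m + D - 1 ≤ j → (Polynomial.X ^ (k : ℕ) * q r).coeff j = 0 := by
        intro j hj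
        rw [Polynomial.coeff_X_pow_mul']
        split_ifs with h
        · exact hqc _ (by have := k.2; omega)
        · rfl
      rw [sum_nw_poly hinj, h3 _ le_rfl]
      rw [Polynomial.degree_lt_iff_coeff_zero]
      intro j hj
      exact h3 j (by omega)
    rw [h2, zero_add]
    refine Finset.sum_congr rfl fun j _ => ?_
    rw [sum_nw_frac hinj hk fun i h => ?_]
    · rw [div_eq_mul_inv]; ring
    · have h3 := hx _ _ (ha i) j
      rw [h, sub_self, norm_zero] at h3
      linarith
  rw [hB]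
  -- sums of weights
  have hsum : ∑ c, Sum.elim Wb W' (y c) = ∑ i, Wb (a i) + ∑ c, W' (u c) := by
    rw [← Equiv.sum_comp e.symm, Fintype.sum_sum_type]
    congr 1
    · refine Finset.sum_congr rfl fun i _ => ?_
      have h1 : e.symm (Sum.inl i) = (eS.symm i).1 := rfl
      rw [h1, ha]; rfl
    · refine Finset.sum_congr rfl fun c _ => ?_
      have h1 : e.symm (Sum.inr c) = c.1 := rfl
      rw [h1, hu]; rfl
  have hva : 0 < vd a := by
    rw [vd_eq]
    exact norm_pos_iff.2 (det_vandermonde_ne_zero_iff.2 hinj)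
  set B0 : ℝ := Real.exp (∑ i, Wb (a i) + ∑ c, W' (u c) - (E' + Eb) + (m : ℝ) * δ) / vd a with hB0
  have hB0' : 0 ≤ B0 := by positivity
  have hmain := dt_sum_le O ε w (fun j => (∏ i, (x j - a i))⁻¹) x (fun j => v' (t j)) hw hB0' ?_
  · have h1 : ‖((fromCols (of fun r (k : Fin m) => (fun (k : Fin m) (r : ι) =>
        ∑ j, w j * (∏ i, (x j - a i))⁻¹ * x j ^ (k : ℕ) * v' (t j) r) k r) O).submatrix
          id ε).det‖ ≤ C ^ m * B0 := hmain
    calc vd a * ‖((fromCols (of fun r (k : Fin m) => (fun (k : Fin m) (r : ι) =>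
        ∑ j, w j * (∏ i, (x j - a i))⁻¹ * x j ^ (k : ℕ) * v' (t j) r) k r) O).submatrix
          id ε).det‖ ≤ vd a * (C ^ m * B0) := mul_le_mul_of_nonneg_left h1 hva.le
      _ = C ^ m * Real.exp (∑ i, Wb (a i) + ∑ c, W' (u c) - (E' + Eb) + (m : ℝ) * δ) := by
          rw [hB0]; field_simp
      _ ≤ C ^ K * Real.exp (∑ c, Sum.elim Wb W' (y c) - (E' + Eb) + (K : ℕ) * δ) := by
          rw [hsum]
          refine mul_le_mul (pow_le_pow_right₀ hC (by omega)) ?_ (Real.exp_pos _).le (by positivity)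
          refine Real.exp_le_exp.2 ?_
          have : (m : ℝ) ≤ K := by exact_mod_cast (by omega : m ≤ K)
          nlinarith
  · intro X
    have h1 := hE m (by omega) a (fun k => x (X k)) fun k i => hx _ _ (ha i) (X k)
    have h2 : ∏ k, ‖(∏ i, (x (X k) - a i))⁻¹‖ = ∏ k, ∏ i, ‖x (X k) - a i‖⁻¹ := by
      refine Finset.prod_congr rfl fun k _ => ?_
      rw [norm_inv, norm_prod, Finset.prod_inv_distrib]
    have h3 := hG fun c => Sum.elim (fun k => t (X k)) u (ε c)
    have h4 : (of fun r c => v' (Sum.elim (fun k => t (X k)) u (ε c)) r : Matrix ι ι ℂ)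
        = (fromCols (of fun r k => v' (t (X k)) r) O).submatrix id ε := by
      ext r c
      rcases h : ε c with k | c'
      · simp [h]
      · simp [h, hO]
    have h5 : ∑ c, W' (Sum.elim (fun k => t (X k)) u (ε c))
        = ∑ k, W' (t (X k)) + ∑ c, W' (u c) := by
      rw [Equiv.sum_comp ε (fun c => W' (Sum.elim (fun k => t (X k)) u c)),
        Fintype.sum_sum_type]
      rfl
    rw [h4, h5] at h3
    rw [hB0, le_div_iff₀ hva, h2]
    have h6 : ∑ k, W' (t (X k)) ≤ ∑ k, Wb (x (X k)) + (m : ℝ) * δ := by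
      have h7 : ∑ k : Fin m, W' (t (X k)) ≤ ∑ k : Fin m, (Wb (x (X k)) + δ) :=
        Finset.sum_le_sum fun k _ => ht (X k)
      rw [Finset.sum_add_distrib, Finset.sum_const, Finset.card_univ, Fintype.card_fin,
        nsmul_eq_mul] at h7
      exact h7
    calc (∏ k, ∏ i, ‖x (X k) - a i‖⁻¹) * vd (fun k => x (X k)) *
          ‖dt O ε fun k => v' (t (X k))‖ * vd a
        = (vd a * vd (fun k => x (X k)) * ∏ k, ∏ i, ‖x (X k) - a i‖⁻¹) *
          ‖dt O ε fun k => v' (t (X k))‖ := by ring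
      _ ≤ Real.exp (∑ i, Wb (a i) - ∑ k, Wb (x (X k)) - Eb) *
          Real.exp (∑ k, W' (t (X k)) + ∑ c, W' (u c) - E') :=
        mul_le_mul h1 h3 (norm_nonneg _) (Real.exp_pos _).le
      _ ≤ _ := by
        rw [← Real.exp_add]
        refine Real.exp_le_exp.2 ?_
        linarith

end

end Vale.Agent.P030.T.Lad
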