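import Vale.Agent.P030.H208.Join
import Vale.Agent.P030.V1.W
import Vale.Agent.P030.H250.V1G
import Vale.Agent.P030.H336.Incl
import Vale.Agent.P030.H866.TotR
import Vale.Agent.P030.H284.V1Om
import Vale.Agent.P030.H476.V1.All
import Vale.Agent.P030.H60.ExV
import Vale.Agent.P030.H225.RefV

/-!
# P030, route N: the archimedean estimate for design A from the certificate `V1`
-/

namespace Vale.Agent.P030.T

open Vale.Agent.P030.H476.VE (okE Seg)
open Vale.Agent.P030.H462
open Vale.Agent.P030.H208 (Link stAF_join rhoOk readIn)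
open Vale.Agent.P030.H250 (GeoN)

theorem v1_mt : LK.mtch H476.VE.V1.S H476.VE.V1.A V1.tab.toTab.ents = true := by
  decide +kernel

theorem v1_sym : PT.symOk V1.tab.toTab = true := by decide +kernel

theorem v1_en : LK.enOk H476.VE.V1.S V1.tab.toTab 27 H476.VE.V1.P H476.VE.V1.Q
    H284.V1.e0 = true := by decide +kernel

theorem v1_L : 0 < V1.tab.toTab.L := by decide +kernel

theorem v1_SL : H476.VE.V1.S.L = 27 * V1.tab.toTab.L := by decide +kernel

/-- the potentials of the certificate -/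
noncomputable def v1_link : Link V1.tab.toTab :=
  Link.mk' V1.tab.toTab H476.VE.V1.S H476.VE.V1.A H476.VE.V1.ok v1_mt v1_L v1_SL v1_sym
    H476.VE.V1.seg H476.VE.V1.len H284.V1.e0 v1_en

theorem v1_rho : rhoOk H69.V1.GN.rn H69.V1.GN.rd = true := by decide +kernel

theorem v1_in : readIn H69.V1.GN.rn H69.V1.GN.rd H284.V1.rad = true := by decide +kernel

theorem v1_allLit : H69.V1.GN.allLit V1.lit = true := by decide +kernel

theorem lev_lv (g : Gp) (b : Fin 8) (h : b ∈ H866.levR g) : (b : ℕ) ∈ H284.lvA g := by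
  revert b
  cases g <;> decide

/-- **the archimedean estimate for design A** -/
theorem stAF_V1 (c0 : ℕ) : StAF H579.parA c0 ((41700000 : ℤ) / 10000) := by
  obtain ⟨V, hV⟩ := H60.ExV.existsV
  obtain ⟨X, hX, -⟩ := H265.exists_YD H225.refV hV
  have hg := GeoN.good_of_allLit v1_allLit V1.lit_ok
  exact stAF_join V1.tab.toTab v1_link H69.V1.GN H69.V1.w v1_rho H69.V1.hw H69.V1.cu H69.V1.ca
    H69.V1.cc H69.V1.c1 H69.V1.c2 H69.V1.c3 hg.1 hg.2.1 hg.2.2 (H336.frs1 hX) H352.discPk
    (H336.gpatV hX) rfl (fun _ _ _ _ h => h) (fun _ _ _ _ h => h) (fun _ _ _ h => h)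
    H284.V1.rad v1_in (H866.totRad H284.V1.rad) AR.Rc_det
    (H866.totRadR H284.V1.rad H284.V1.rad_ok) (fun g b h => lev_lv g b h) H284.V1.readOk
    H284.V1.val_ok

end Vale.Agent.P030.T
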