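import Vale.Agent.P030.T.Top
import Vale.Agent.P030.T.V1AF

/-!
# P030 : Catalan's constant is irrational
-/

namespace Vale.Agent.P030.T

/-- **Catalan's constant is irrational** -/
theorem catalan_irrational : Irrational (∑' j : ℕ, (-1 : ℝ) ^ j / (2 * (j : ℝ) + 1) ^ 2) :=
  catalan_of_AF (stAF_V1 7) (by norm_num)

end Vale.Agent.P030.T
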