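import Mathlib

/-!
# P030, ladder bound: the algebra of one elimination step

Columns of the type `(a^k)_{k<D} ⊕ g(a)` and columns `0 ⊕ o`; the first `D` rows are eliminated.
-/

open Finset Matrix

namespace Vale.Agent.P030.T.Lad

/-- modulus of the Vandermonde product -/
noncomputable def vd {n : ℕ} (a : Fin n → ℂ) : ℝ := ∏ i, ∏ j ∈ Ioi i, ‖a j - a i‖

theorem vd_eq {n : ℕ} (a : Fin n → ℂ) : vd a = ‖(vandermonde a).det‖ := by
  rw [det_vandermonde, norm_prod]
  simp_rw [norm_prod]
  rfl

theorem vd_nonneg {n : ℕ} (a : Fin n → ℂ) : 0 ≤ vd a := by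
  rw [vd_eq]; exact norm_nonneg _

/-- row and column reindexing does not change the modulus of the determinant -/
theorem norm_det_submatrix {α β : Type*} [Fintype α] [DecidableEq α] [Fintype β] [DecidableEq β]
    (M : Matrix α α ℂ) (e f : β ≃ α) : ‖(M.submatrix e f).det‖ = ‖M.det‖ := by
  have h1 : M.submatrix e f = (M.submatrix e e).submatrix id (f.trans e.symm) := by
    ext i j; simp
  rw [h1, det_permute', norm_mul, det_submatrix_equiv_self]
  rcases Int.units_eq_one_or (Equiv.Perm.sign (f.trans e.symm)) with h | h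
  · rw [h]; simp
  · rw [h]; simp

theorem antitri {D : ℕ} (M : Matrix (Fin D) (Fin D) ℂ)
    (h0 : ∀ j l : Fin D, (j : ℕ) + l + 1 < D → M j l = 0)
    (h1 : ∀ j l : Fin D, (j : ℕ) + l + 1 = D → M j l = 1) : ‖M.det‖ = 1 := by
  have h2 : ((M.submatrix (Fin.revPerm (n := D)) id)).det = 1 := by
    rw [det_of_isUpperTriangular]
    · refine Finset.prod_eq_one fun j _ => ?_
      refine h1 _ _ ?_
      have := j.2
      simp only [Fin.revPerm_apply, Fin.val_rev, id]
      omega
    · intro i j hij
      refine h0 _ _ ?_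
      have hi := i.2
      have : (j : ℕ) < i := hij
      simp only [Fin.revPerm_apply, Fin.val_rev, id]
      omega
  rw [det_permute] at h2
  have h3 : ‖((Equiv.Perm.sign (Fin.revPerm (n := D)) : ℤˣ) : ℂ)‖ = 1 := by
    rcases Int.units_eq_one_or (Equiv.Perm.sign (Fin.revPerm (n := D))) with h | h
    · rw [h]; simp
    · rw [h]; simp
  have h4 := congrArg norm h2
  rw [norm_mul, norm_one, h3, one_mul] at h4
  exact h4

/-- the weights `1/ω'(a_i)` -/
noncomputable def nw {n : ℕ} (a : Fin n → ℂ) (i : Fin n) : ℂ := Lagrange.nodalWeight univ a i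

theorem sum_nw_poly {n : ℕ} {a : Fin n → ℂ} (ha : Function.Injective a) {p : Polynomial ℂ}
    (hp : p.degree < n) : ∑ i, nw a i * p.eval (a i) = p.coeff (n - 1) := by
  have h := Lagrange.coeff_eq_sum (s := (univ : Finset (Fin n))) (v := a) ha.injOn (P := p)
    (by simpa using hp)
  simp only [card_univ, Fintype.card_fin] at h
  rw [h]
  refine Finset.sum_congr rfl fun i _ => ?_
  rw [nw, Lagrange.nodalWeight, div_eq_mul_inv, mul_comm, Finset.prod_inv_distrib]

theorem sum_nw_pow {n : ℕ} {a : Fin n → ℂ} (ha : Function.Injective a) {k : ℕ} (hk : k < n) :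
    ∑ i, nw a i * a i ^ k = if k + 1 = n then 1 else 0 := by
  have h := sum_nw_poly ha (p := (Polynomial.X ^ k : Polynomial ℂ)) (by
    rw [Polynomial.degree_X_pow]; exact_mod_cast hk)
  simp only [Polynomial.eval_pow, Polynomial.eval_X, Polynomial.coeff_X_pow] at h
  rw [h]
  by_cases h1 : k + 1 = n
  · rw [if_pos h1, if_pos (by omega)]
  · rw [if_neg h1, if_neg (by omega)]

theorem sum_nw_frac {n : ℕ} {a : Fin n → ℂ} (ha : Function.Injective a) {k : ℕ} (hk : k < n)
    {x : ℂ} (hx : ∀ i, x ≠ a i) :
    ∑ i, nw a i * a i ^ k / (x - a i) = x ^ k / ∏ i, (x - a i) := by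
  have h1 := Lagrange.eval_interpolate_not_at_node (s := (univ : Finset (Fin n))) (v := a)
    (x := x) (fun i => a i ^ k) (fun i _ => hx i)
  have h2 : Lagrange.interpolate univ a (fun i => a i ^ k) = (Polynomial.X ^ k : Polynomial ℂ) := by
    symm
    apply Lagrange.eq_interpolate_of_eval_eq (s := (univ : Finset (Fin n))) (v := a)
      (f := (Polynomial.X ^ k : Polynomial ℂ)) _ ha.injOn
    · rw [Polynomial.degree_X_pow]; simpa using hk
    · intro i _; simp
  rw [h2, Lagrange.eval_nodal] at h1
  simp only [Polynomial.eval_pow, Polynomial.eval_X] at h1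
  have h3 : ∏ i, (x - a i) ≠ 0 := Finset.prod_ne_zero_iff.2 fun i _ => sub_ne_zero.2 (hx i)
  rw [eq_div_iff h3, mul_comm, h1]
  congr 1
  refine Finset.sum_congr rfl fun i _ => ?_
  rw [nw]; field_simp

/-- the transformation matrix of the columns -/
noncomputable def TT {n : ℕ} (a : Fin n → ℂ) : Matrix (Fin n) (Fin n) ℂ :=
  of fun i k => nw a i * a i ^ (k : ℕ)

theorem norm_det_TT {n : ℕ} {a : Fin n → ℂ} (ha : Function.Injective a) :
    vd a * ‖(TT a).det‖ = 1 := by
  rw [vd_eq, ← det_transpose, ← norm_mul, ← det_mul]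
  apply antitri
  · intro j l h
    have h1 : ((vandermonde a)ᵀ * TT a) j l = ∑ i, nw a i * a i ^ ((j : ℕ) + l) := by
      rw [mul_apply]
      refine Finset.sum_congr rfl fun i _ => ?_
      simp only [transpose_apply, vandermonde_apply, TT, of_apply]
      ring
    rw [h1, sum_nw_pow ha (by omega), if_neg (by omega)]
  · intro j l h
    have h1 : ((vandermonde a)ᵀ * TT a) j l = ∑ i, nw a i * a i ^ ((j : ℕ) + l) := by
      rw [mul_apply]
      refine Finset.sum_congr rfl fun i _ => ?_
      simp only [transpose_apply, vandermonde_apply, TT, of_apply]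
      ring
    rw [h1, sum_nw_pow ha (by omega), if_pos (by omega)]

variable {ι κ : Type*} [Fintype ι] [DecidableEq ι] [Fintype κ] [DecidableEq κ]

/-- elimination of the first `D` rows -/
theorem elim_eq {D m : ℕ} {a : Fin (m + D) → ℂ} (ha : Function.Injective a)
    (G : Matrix ι (Fin (m + D)) ℂ) (O : Matrix ι κ ℂ) (e : Fin D ⊕ ι ≃ Fin (m + D) ⊕ κ)
    (ε : ι ≃ Fin m ⊕ κ) :
    ‖((fromBlocks (of fun (j : Fin D) i => a i ^ (j : ℕ)) 0 G O).submatrix id e).det‖
      = vd a * ‖((fromCols (of fun r (k : Fin m) => ∑ i, nw a i * a i ^ (k : ℕ) * G r i)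
        O).submatrix id ε).det‖ := by
  set M := fromBlocks (of fun (j : Fin D) i => a i ^ (j : ℕ)) 0 G O with hM
  set T' : Matrix (Fin (m + D) ⊕ κ) (Fin (m + D) ⊕ κ) ℂ := fromBlocks (TT a) 0 0 1 with hT'
  have h1 : ((M * T').submatrix id e).det = (M.submatrix id e).det * (TT a).det := by
    have h2 : (M * T').submatrix id e = M.submatrix id e * T'.submatrix e e := by
      rw [submatrix_mul_equiv]
    rw [h2, det_mul, det_submatrix_equiv_self, hT', det_fromBlocks_zero₁₂, det_one, mul_one]
  -- the second form of the product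
  let f : (Fin D ⊕ ι) ≃ Fin (m + D) ⊕ κ :=
    ((Equiv.sumCongr (Equiv.refl _) ε).trans (Equiv.sumAssoc _ _ _).symm).trans
      (Equiv.sumCongr ((Equiv.sumComm _ _).trans finSumFinEquiv) (Equiv.refl _))
  have h3 : ‖((M * T').submatrix id e).det‖ = ‖((M * T').submatrix id f).det‖ := by
    have h4 : (M * T').submatrix id e = ((M * T').submatrix id f).submatrix id (e.trans f.symm) := by
      ext i j; simp
    rw [h4]
    have h5 := norm_det_submatrix ((M * T').submatrix id f) (Equiv.refl _) (e.trans f.symm)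
    simpa using h5
  have h6 : (M * T').submatrix id f = fromBlocks
      (of fun (j : Fin D) (l : Fin D) => ∑ i, nw a i * a i ^ ((j : ℕ) + (m + l))) 0
      (of fun r (l : Fin D) => ∑ i, nw a i * a i ^ (m + (l : ℕ)) * G r i)
      ((fromCols (of fun r (k : Fin m) => ∑ i, nw a i * a i ^ (k : ℕ) * G r i) O).submatrix
        id ε) := by
    have h7 : M * T' = fromBlocks (of (fun (j : Fin D) i => a i ^ (j : ℕ)) * TT a) 0
        (G * TT a) O := by
      rw [hM, hT', fromBlocks_multiply]
      simp
    rw [h7]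
    ext i j
    rcases i with i | i <;> rcases j with j | j
    · simp only [submatrix_apply, id, f, Equiv.trans_apply, Equiv.sumCongr_apply, Sum.map_inl,
        Equiv.refl_apply, Equiv.sumAssoc_symm_apply_inl, Equiv.sumComm_apply, Sum.swap_inl,
        finSumFinEquiv_apply_right, fromBlocks_apply₁₁, mul_apply, of_apply, TT]
      refine Finset.sum_congr rfl fun t _ => ?_
      simp only [Fin.val_natAdd]
      ring
    · simp only [submatrix_apply, id, f, Equiv.trans_apply, Equiv.sumCongr_apply, Sum.map_inr,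
        fromBlocks_apply₁₂, Matrix.zero_apply]
      rcases h : ε j with k | k
      · simp only [Equiv.sumAssoc_symm_apply_inr_inl, Sum.map_inl, Equiv.trans_apply,
          Equiv.sumComm_apply, Sum.swap_inr, finSumFinEquiv_apply_left, fromBlocks_apply₁₁,
          mul_apply, of_apply, TT]
        have h8 := sum_nw_pow ha (k := (i : ℕ) + k) (by omega)
        rw [if_neg (by omega)] at h8
        rw [← h8]
        refine Finset.sum_congr rfl fun t _ => ?_
        simp only [Fin.val_castAdd]
        ring
      · simp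
    · simp only [submatrix_apply, id, f, Equiv.trans_apply, Equiv.sumCongr_apply, Sum.map_inl,
        Equiv.refl_apply, Equiv.sumAssoc_symm_apply_inl, Equiv.sumComm_apply, Sum.swap_inl,
        finSumFinEquiv_apply_right, fromBlocks_apply₂₁, mul_apply, of_apply, TT]
      refine Finset.sum_congr rfl fun t _ => ?_
      simp only [Fin.val_natAdd]
      ring
    · simp only [submatrix_apply, id, f, Equiv.trans_apply, Equiv.sumCongr_apply, Sum.map_inr,
        fromBlocks_apply₂₂]
      rcases h : ε j with k | k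
      · simp only [Equiv.sumAssoc_symm_apply_inr_inl, Sum.map_inl, Equiv.trans_apply,
          Equiv.sumComm_apply, Sum.swap_inr, finSumFinEquiv_apply_left, fromBlocks_apply₂₁,
          mul_apply, of_apply, TT, fromCols_apply_inl]
        refine Finset.sum_congr rfl fun t _ => ?_
        simp only [Fin.val_castAdd]
        ring
      · simp
  have h9 : ‖(of fun (j : Fin D) (l : Fin D) =>
      ∑ i, nw a i * a i ^ ((j : ℕ) + (m + l)) : Matrix (Fin D) (Fin D) ℂ).det‖ = 1 := by
    apply antitri
    · intro j l h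
      rw [of_apply, sum_nw_pow ha (by omega), if_neg (by omega)]
    · intro j l h
      rw [of_apply, sum_nw_pow ha (by omega), if_pos (by omega)]
  have h10 : ‖((M * T').submatrix id f).det‖ = ‖((fromCols (of fun r (k : Fin m) =>
      ∑ i, nw a i * a i ^ (k : ℕ) * G r i) O).submatrix id ε).det‖ := by
    rw [h6, det_fromBlocks_zero₁₂, norm_mul, h9, one_mul]
  have h11 := norm_det_TT ha
  have h12 : ‖(M.submatrix id e).det‖ * ‖(TT a).det‖ = ‖((M * T').submatrix id e).det‖ := by
    rw [h1, norm_mul]
  have h13 : ‖(M.submatrix id e).det‖ = vd a * (‖(M.submatrix id e).det‖ * ‖(TT a).det‖) := by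
    rw [mul_comm ‖(M.submatrix id e).det‖, ← mul_assoc, h11, one_mul]
  rw [h13, h12, h3, h10]

end Vale.Agent.P030.T.Lad
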