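import Vale.Agent.P030.T.LadStep

/-!
# P030, ladder bound: one level with a movable wall
-/

open Finset Matrix

namespace Vale.Agent.P030.T.Lad

/-- a level: nodes `N` with positions and rest vectors; every finite family of nodes can be
represented, up to `ε`, by a polynomial, by sources at distance `≥ η` and by `L` higher nodes -/
def Rep (ι : Type) (T' N : Type) (D K L : ℕ) (v' : T' → ι → ℂ) (W' : T' → ℝ) (pos : N → ℂ)
    (g : N → ι → ℂ) (Wb : ℂ → ℝ) (η δ C : ℝ) : Prop :=
  ∀ S : Finset N, S.card ≤ K → ∀ ε : ℝ, 0 < ε →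
    ∃ (nq : ℕ) (q : ι → Polynomial ℂ) (w x : Fin nq → ℂ) (t : Fin nq → T')
      (c : N → Fin L → ℂ) (u : N → Fin L → T'),
      (∀ r, (q r).degree < D) ∧ (∑ j, ‖w j‖ ≤ C) ∧ (∀ j, W' (t j) ≤ Wb (x j) + δ) ∧
      ∀ a ∈ S, (∀ j, η ≤ ‖x j - pos a‖) ∧
        (∀ l, ‖c a l‖ ≤ C ∧ W' (u a l) ≤ Wb (pos a) + δ) ∧
        ∀ r, ‖g a r - ((q r).eval (pos a) + ∑ j, w j * v' (t j) r / (x j - pos a)
          + ∑ l, c a l * v' (u a l) r)‖ ≤ ε

/-- the columns of the new level -/
def newv {ι T' N : Type} (D : ℕ) (v' : T' → ι → ℂ) (pos : N → ℂ) (g : N → ι → ℂ) :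
    N ⊕ T' → Fin D ⊕ ι → ℂ
  | .inl a => colp D (pos a) (g a)
  | .inr t => colt D (v' t)

variable {ι : Type} [Fintype ι] [DecidableEq ι] {T' N : Type} {D L : ℕ}

theorem norm_det_cols {J : Type} [Fintype J] [DecidableEq J] (F : J → J → ℂ) :
    ‖(of fun r c => F c r : Matrix J J ℂ).det‖ = ‖detRowAlternating (R := ℂ) (n := J) F‖ := by
  rw [← det_transpose]
  rfl

theorem step {v' : T' → ι → ℂ} {W' : T' → ℝ} {E' : ℝ} (hG : Good ι T' v' W' E')
    (pos : N → ℂ) (g : N → ι → ℂ) {Wb : ℂ → ℝ} {Eb η δ C : ℝ} (hη : 0 < η) (hC : 1 ≤ C)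
    (hδ : 0 ≤ δ) (hE : Energy D Wb Eb η (D + Fintype.card ι))
    (hR : Rep ι T' N D (D + Fintype.card ι) L v' W' pos g Wb η δ C) :
    Good (Fin D ⊕ ι) (N ⊕ T') (newv D v' pos g) (Sum.elim (fun a => Wb (pos a)) W')
      (E' + Eb - (D + Fintype.card ι : ℕ) * (2 * δ + Real.log ((L + 1) * C ^ 2))) := by
  classical
  set K := D + Fintype.card ι with hK
  intro y
  have hKJ : Fintype.card (Fin D ⊕ ι) = K := by simp [hK]
  set WW : N ⊕ T' → ℝ := Sum.elim (fun a => Wb (pos a)) W' with hWW
  set bd : ℝ := Real.exp (∑ c, WW (y c) - (E' + Eb - (K : ℕ) *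
    (2 * δ + Real.log ((L + 1) * C ^ 2)))) with hbd
  have hbd' : bd = ((L : ℝ) + 1) ^ K * C ^ K * (C ^ K * Real.exp (∑ c, WW (y c) - (E' + Eb)
      + 2 * K * δ)) := by
    have h1 : Real.exp ((K : ℝ) * Real.log ((L + 1) * C ^ 2)) = (((L : ℝ) + 1) * C ^ 2) ^ K := by
      rw [mul_comm, Real.exp_mul, Real.exp_log (by positivity), Real.rpow_natCast]
    have h2 : ∑ c, WW (y c) - (E' + Eb - (K : ℕ) * (2 * δ + Real.log ((L + 1) * C ^ 2)))
        = (∑ c, WW (y c) - (E' + Eb) + 2 * K * δ) + (K : ℝ) * Real.log ((L + 1) * C ^ 2) := by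
      push_cast; ring
    rw [hbd, h2, Real.exp_add, h1, mul_pow]
    ring
  -- the family of nodes
  set S : Finset N := Finset.univ.biUnion fun c : Fin D ⊕ ι =>
    match y c with
    | .inl a => {a}
    | .inr _ => ∅ with hS
  have hSmem : ∀ c a, y c = Sum.inl a → a ∈ S := by
    intro c a h
    rw [hS, Finset.mem_biUnion]
    exact ⟨c, Finset.mem_univ _, by rw [h]; exact Finset.mem_singleton_self a⟩
  have hScard : S.card ≤ K := by
    refine le_trans Finset.card_biUnion_le ?_
    rw [← hKJ, ← Finset.card_univ, Finset.card_eq_sum_ones]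
    refine Finset.sum_le_sum fun c _ => ?_
    rcases h : y c with a | t <;> simp
  -- approximations
  have happ : ∀ ε : ℝ, 0 < ε → ∃ F : (Fin D ⊕ ι) → (Fin D ⊕ ι) → ℂ,
      (∀ c r, ‖newv D v' pos g (y c) r - F c r‖ ≤ ε) ∧
      ‖(of fun r c => F c r : Matrix (Fin D ⊕ ι) (Fin D ⊕ ι) ℂ).det‖ ≤ bd := by
    intro ε hε
    obtain ⟨nq, q, w, x, t, cc, u, hq, hw, ht, hSS⟩ := hR S hScard ε hε
    -- kinds and coefficients
    let kd : (Fin D ⊕ ι) → Fin (L + 1) → ℂ ⊕ T' := fun c => match y c with
      | .inl a => Fin.cons (Sum.inl (pos a)) fun l => Sum.inr (u a l)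
      | .inr s => fun _ => Sum.inr s
    let cf : (Fin D ⊕ ι) → Fin (L + 1) → ℂ := fun c => match y c with
      | .inl a => Fin.cons 1 fun l => cc a l
      | .inr _ => Fin.cons 1 fun _ => 0
    have hkd : ∀ c l, Sum.elim Wb W' (kd c l) ≤ WW (y c) + δ := by
      intro c l
      rcases h : y c with a | s
      · simp only [kd, h]
        refine Fin.cases ?_ (fun l => ?_) l
        · simp [hWW, hδ]
        · simpa [hWW] using ((hSS a (hSmem c a h)).2.1 l).2
      · simp [kd, h, hWW, hδ]
    have hcf : ∀ c l, ‖cf c l‖ ≤ C := by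
      intro c l
      rcases h : y c with a | s
      · simp only [cf, h]
        refine Fin.cases ?_ (fun l => ?_) l
        · simpa using hC
        · simpa using ((hSS a (hSmem c a h)).2.1 l).1
      · simp only [cf, h]
        refine Fin.cases ?_ (fun l => ?_) l
        · simpa using hC
        · simp only [Fin.cons_succ, norm_zero]; linarith
    let F : (Fin D ⊕ ι) → (Fin D ⊕ ι) → ℂ := fun c =>
      ∑ l, cf c l • colk D v' q w x t (kd c l)
    refine ⟨F, ?_, ?_⟩
    · intro c r
      rcases h : y c with a | s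
      · have h1 : F c r = colk D v' q w x t (Sum.inl (pos a)) r
            + ∑ l, cc a l * colk D v' q w x t (Sum.inr (u a l)) r := by
          simp only [F, Finset.sum_apply, Pi.smul_apply, smul_eq_mul]
          rw [Fin.sum_univ_succ]
          simp [cf, kd, h]
        rw [h1]
        rcases r with k | r
        · simp [newv, colp, colk, colt, hε.le]
        · have h2 := (hSS a (hSmem c a h)).2.2 r
          simpa [newv, colp, colk, colt, srcg, add_assoc] using h2
      · have h1 : F c r = colk D v' q w x t (Sum.inr s) r := by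
          simp only [F, Finset.sum_apply, Pi.smul_apply, smul_eq_mul]
          rw [Fin.sum_univ_succ]
          simp [cf, kd, h]
        rw [h1]
        simp [newv, colk, hε.le]
    · rw [norm_det_cols]
      have h1 := (detRowAlternating (R := ℂ) (n := Fin D ⊕ ι)).toMultilinearMap.map_sum
        (fun c l => cf c l • colk D v' q w x t (kd c l))
      have h2 : detRowAlternating (R := ℂ) (n := Fin D ⊕ ι) F
          = ∑ f : (Fin D ⊕ ι) → Fin (L + 1), detRowAlternating (R := ℂ) (n := Fin D ⊕ ι)
            (fun c => cf c (f c) • colk D v' q w x t (kd c (f c))) := h1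
      rw [h2]
      refine le_trans (norm_sum_le _ _) ?_
      have h3 : ∀ f : (Fin D ⊕ ι) → Fin (L + 1), ‖detRowAlternating (R := ℂ) (n := Fin D ⊕ ι)
            (fun c => cf c (f c) • colk D v' q w x t (kd c (f c)))‖
          ≤ C ^ K * (C ^ K * Real.exp (∑ c, WW (y c) - (E' + Eb) + 2 * K * δ)) := by
        intro f
        have h4 : detRowAlternating (R := ℂ) (n := Fin D ⊕ ι)
            (fun c => cf c (f c) • colk D v' q w x t (kd c (f c)))
            = (∏ c, cf c (f c)) • detRowAlternating (R := ℂ) (n := Fin D ⊕ ι)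
              (fun c => colk D v' q w x t (kd c (f c))) :=
          (detRowAlternating (R := ℂ) (n := Fin D ⊕ ι)).toMultilinearMap.map_smul_univ _ _
        rw [h4, norm_smul, norm_prod, ← norm_det_cols]
        refine mul_le_mul ?_ ?_ (norm_nonneg _) (by positivity)
        · rw [← hKJ, ← Finset.card_univ, ← Finset.prod_const]
          exact Finset.prod_le_prod (fun c _ => norm_nonneg _) fun c _ => hcf c _
        · have h5 := step_core hG hη hC hδ hE q w x t hq hw ht (fun c => kd c (f c)) (by
            intro c p hp j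
            rcases h : y c with a | s
            · simp only [kd, h] at hp
              revert hp
              refine Fin.cases ?_ (fun l => ?_) (f c)
              · intro hp
                simp only [Fin.cons_zero, Sum.inl.injEq] at hp
                rw [← hp]
                exact (hSS a (hSmem c a h)).1 j
              · intro hp
                simp at hp
            · simp only [kd, h] at hp
              cases hp)
          refine le_trans h5 (mul_le_mul_of_nonneg_left (Real.exp_le_exp.2 ?_) (by positivity))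
          have h6 : ∑ c, Sum.elim Wb W' (kd c (f c)) ≤ ∑ c, (WW (y c) + δ) :=
            Finset.sum_le_sum fun c _ => hkd c _
          rw [Finset.sum_add_distrib, Finset.sum_const, Finset.card_univ, hKJ,
            nsmul_eq_mul] at h6
          linarith
      refine le_trans (Finset.sum_le_sum fun f _ => h3 f) ?_
      rw [Finset.sum_const, Finset.card_univ, Fintype.card_fun, hKJ, Fintype.card_fin,
        nsmul_eq_mul, hbd']
      push_cast
      exact le_of_eq (by ring)
  -- the limit
  choose F hF1 hF2 using fun n : ℕ => happ (1 / ((n : ℝ) + 1)) (by positivity)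
  have hlim : ∀ c r, Filter.Tendsto (fun n => F n c r) Filter.atTop
      (nhds (newv D v' pos g (y c) r)) := by
    intro c r
    rw [tendsto_iff_norm_sub_tendsto_zero]
    refine squeeze_zero (fun n => norm_nonneg _) (fun n => ?_) tendsto_one_div_add_atTop_nhds_zero_nat
    rw [norm_sub_rev]
    exact hF1 n c r
  have hlim2 : Filter.Tendsto (fun n => (of fun r c => F n c r :
      Matrix (Fin D ⊕ ι) (Fin D ⊕ ι) ℂ)) Filter.atTop
      (nhds (of fun r c => newv D v' pos g (y c) r)) := by
    have h1 : Filter.Tendsto (fun n => (fun r c => F n c r : (Fin D ⊕ ι) → (Fin D ⊕ ι) → ℂ))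
        Filter.atTop (nhds (fun r c => newv D v' pos g (y c) r)) :=
      tendsto_pi_nhds.2 fun r => tendsto_pi_nhds.2 fun c => hlim c r
    exact h1
  have hlim3 := (continuous_id.matrix_det (n := Fin D ⊕ ι) (R := ℂ)).norm.tendsto
    (of fun r c => newv D v' pos g (y c) r)
  exact le_of_tendsto (hlim3.comp hlim2) (Filter.Eventually.of_forall hF2)

/-- the empty list of levels -/
theorem good_empty (T : Type) (v : T → Empty → ℂ) (W : T → ℝ) : Good Empty T v W 0 := by
  intro y
  simp

end Vale.Agent.P030.T.Lad
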