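import Vale.Agent.P030.T.LadCore

/-!
# P030, ladder bound: the antisymmetrised sum over the source points
-/

open Finset Matrix

namespace Vale.Agent.P030.T.Lad

variable {ι κ Q : Type*} [Fintype ι] [DecidableEq ι] [Fintype κ] [DecidableEq κ] [Fintype Q]

/-- the determinant with the first `m` columns variable -/
noncomputable def dt {m : ℕ} (O : Matrix ι κ ℂ) (ε : ι ≃ Fin m ⊕ κ) (U : Fin m → ι → ℂ) : ℂ :=
  ((fromCols (of fun r k => U k r) O).submatrix id ε).det

omit [Fintype ι] [Fintype κ] [DecidableEq κ] in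
theorem dt_update {m : ℕ} (O : Matrix ι κ ℂ) (ε : ι ≃ Fin m ⊕ κ) [DecidableEq (Fin m)]
    (U : Fin m → ι → ℂ) (k : Fin m) (v : ι → ℂ) :
    (fromCols (of fun r j => (Function.update U k v) j r) O).submatrix id ε =
      updateCol ((fromCols (of fun r j => U j r) O).submatrix id ε) (ε.symm (Sum.inl k)) v := by
  ext r c
  rw [updateCol_apply]
  by_cases h : c = ε.symm (Sum.inl k)
  · rw [if_pos h, h]
    simp
  · rw [if_neg h]
    rcases h2 : ε c with j | j
    · have h3 : j ≠ k := by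
        rintro rfl
        apply h
        rw [← h2, Equiv.symm_apply_apply]
      simp [h2, Function.update_of_ne h3]
    · simp [h2]

/-- multilinear form -/
noncomputable def ML {m : ℕ} (O : Matrix ι κ ℂ) (ε : ι ≃ Fin m ⊕ κ) :
    MultilinearMap ℂ (fun _ : Fin m => ι → ℂ) ℂ where
  toFun U := dt O ε U
  map_update_add' := by
    intro _ U k v w
    have e : ‹DecidableEq (Fin m)› = instDecidableEqFin m := Subsingleton.elim _ _
    subst e
    simp only [dt]
    rw [dt_update, dt_update, dt_update, det_updateCol_add]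
  map_update_smul' := by
    intro _ U k c v
    have e : ‹DecidableEq (Fin m)› = instDecidableEqFin m := Subsingleton.elim _ _
    subst e
    simp only [dt]
    rw [dt_update, dt_update, det_updateCol_smul, smul_eq_mul]

theorem dt_perm {m : ℕ} (O : Matrix ι κ ℂ) (ε : ι ≃ Fin m ⊕ κ) (U : Fin m → ι → ℂ)
    (π : Equiv.Perm (Fin m)) :
    dt O ε (fun k => U (π k)) = ((Equiv.Perm.sign π : ℤˣ) : ℂ) * dt O ε U := by
  unfold dt
  have h1 : (fromCols (of fun r k => U (π k) r) O).submatrix id ε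
      = ((fromCols (of fun r k => U k r) O).submatrix id ε).submatrix id
        ((ε.trans (Equiv.sumCongr π (Equiv.refl κ))).trans ε.symm) := by
    ext r c
    rcases h2 : ε c with j | j
    · simp [h2]
    · simp [h2]
  rw [h1, det_permute']
  congr 2
  rw [Equiv.Perm.sign_trans_trans_symm]
  have h3 := Equiv.Perm.sign_sumCongr π (Equiv.refl κ : Equiv.Perm κ)
  have h4 : Equiv.Perm.sign (Equiv.refl κ : Equiv.Perm κ) = 1 := Equiv.Perm.sign_refl
  rw [h4, mul_one] at h3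
  rw [← h3]

/-- the antisymmetrised expansion -/
theorem dt_sum {m : ℕ} (O : Matrix ι κ ℂ) (ε : ι ≃ Fin m ⊕ κ) (c x : Q → ℂ) (V : Q → ι → ℂ) :
    (m.factorial : ℂ) * dt O ε (fun k r => ∑ q, c q * x q ^ (k : ℕ) * V q r)
      = ∑ X : Fin m → Q, (∏ k, c (X k)) * (vandermonde fun k => x (X k)).det
        * dt O ε fun k => V (X k) := by
  classical
  have h0 : dt O ε (fun k r => ∑ q, c q * x q ^ (k : ℕ) * V q r)
      = ∑ X : Fin m → Q, (∏ k : Fin m, c (X k) * x (X k) ^ (k : ℕ)) * dt O ε fun k => V (X k) := by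
    have h1 : (fun (k : Fin m) (r : ι) => ∑ q, c q * x q ^ (k : ℕ) * V q r)
        = fun (k : Fin m) => ∑ q, (c q * x q ^ (k : ℕ)) • V q := by
      funext k r
      rw [Finset.sum_apply]
      rfl
    rw [h1]
    have h2 := (ML O ε).map_sum (fun (k : Fin m) (q : Q) => (c q * x q ^ (k : ℕ)) • V q)
    have h3 : dt O ε (fun (k : Fin m) => ∑ q, (c q * x q ^ (k : ℕ)) • V q)
        = (ML O ε) fun (k : Fin m) => ∑ q, (c q * x q ^ (k : ℕ)) • V q := rfl
    rw [h3, h2]
    refine Finset.sum_congr rfl fun X _ => ?_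
    rw [(ML O ε).map_smul_univ (fun k => c (X k) * x (X k) ^ (k : ℕ)) fun k => V (X k)]
    rfl
  have h4 : ∀ π : Equiv.Perm (Fin m),
      dt O ε (fun k r => ∑ q, c q * x q ^ (k : ℕ) * V q r)
        = ∑ X : Fin m → Q, (∏ k : Fin m, c (X k) * x (X (π k)) ^ (k : ℕ))
          * (((Equiv.Perm.sign π : ℤˣ) : ℂ) * dt O ε fun k => V (X k)) := by
    intro π
    rw [h0, ← Equiv.sum_comp (Equiv.arrowCongr π.symm (Equiv.refl Q))]
    refine Finset.sum_congr rfl fun X _ => ?_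
    have h5 : ∀ k, (Equiv.arrowCongr π.symm (Equiv.refl Q)) X k = X (π k) := fun k => by
      simp [Equiv.arrowCongr]
    simp_rw [h5]
    rw [← dt_perm O ε (fun k => V (X k)) π]
    congr 1
    rw [Finset.prod_mul_distrib, Finset.prod_mul_distrib]
    congr 1
    exact Equiv.prod_comp π fun k => c (X k)
  have h6 : (m.factorial : ℂ) * dt O ε (fun k r => ∑ q, c q * x q ^ (k : ℕ) * V q r)
      = ∑ π : Equiv.Perm (Fin m), dt O ε (fun k r => ∑ q, c q * x q ^ (k : ℕ) * V q r) := by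
    rw [Finset.sum_const, Finset.card_univ, Fintype.card_perm, Fintype.card_fin, nsmul_eq_mul]
  rw [h6, Finset.sum_congr rfl fun π _ => h4 π, Finset.sum_comm]
  refine Finset.sum_congr rfl fun X _ => ?_
  rw [det_apply', Finset.mul_sum, Finset.sum_mul]
  refine Finset.sum_congr rfl fun π _ => ?_
  rw [Finset.prod_mul_distrib]
  simp only [vandermonde_apply]
  ring

/-- **the bound of one elimination step** (finite sources) -/
theorem dt_sum_le {m : ℕ} (O : Matrix ι κ ℂ) (ε : ι ≃ Fin m ⊕ κ) (w c x : Q → ℂ) (V : Q → ι → ℂ)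
    {B C : ℝ} (hC : ∑ q, ‖w q‖ ≤ C) (hB0 : 0 ≤ B)
    (hB : ∀ X : Fin m → Q, (∏ k, ‖c (X k)‖) * vd (fun k => x (X k)) *
      ‖dt O ε fun k => V (X k)‖ ≤ B) :
    ‖dt O ε (fun k r => ∑ q, w q * c q * x q ^ (k : ℕ) * V q r)‖ ≤ C ^ m * B := by
  classical
  have h1 := dt_sum O ε (fun q => w q * c q) x V
  have h2 : (m.factorial : ℝ) * ‖dt O ε (fun k r => ∑ q, w q * c q * x q ^ (k : ℕ) * V q r)‖
      ≤ ∑ X : Fin m → Q, (∏ k, ‖w (X k)‖) * B := by
    have h3 : (m.factorial : ℝ) * ‖dt O ε (fun k r => ∑ q, w q * c q * x q ^ (k : ℕ) * V q r)‖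
        = ‖(m.factorial : ℂ) * dt O ε (fun k r => ∑ q, w q * c q * x q ^ (k : ℕ) * V q r)‖ := by
      rw [norm_mul]; simp
    rw [h3, h1]
    refine le_trans (norm_sum_le _ _) (Finset.sum_le_sum fun X _ => ?_)
    rw [norm_mul, norm_mul, norm_prod]
    simp_rw [norm_mul]
    rw [Finset.prod_mul_distrib, ← vd_eq]
    have h40 : 0 ≤ ∏ k : Fin m, ‖w (X k)‖ := Finset.prod_nonneg fun k _ => norm_nonneg _
    have h4 := mul_le_mul_of_nonneg_left (hB X) h40
    calc (∏ k, ‖w (X k)‖) * (∏ k, ‖c (X k)‖) * vd (fun k => x (X k)) *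
        ‖dt O ε fun k => V (X k)‖ = (∏ k, ‖w (X k)‖) * ((∏ k, ‖c (X k)‖) *
          vd (fun k => x (X k)) * ‖dt O ε fun k => V (X k)‖) := by ring
      _ ≤ _ := h4
  have h5 : ∑ X : Fin m → Q, (∏ k, ‖w (X k)‖) * B = (∑ q, ‖w q‖) ^ m * B := by
    rw [← Finset.sum_mul]
    congr 1
    rw [Fintype.sum_pow]
  rw [h5] at h2
  have h6 : (1 : ℝ) ≤ (m.factorial : ℝ) := Nat.one_le_cast.2 (Nat.factorial_pos m)
  have h7 : 0 ≤ ‖dt O ε (fun k r => ∑ q, w q * c q * x q ^ (k : ℕ) * V q r)‖ := norm_nonneg _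
  have h8 : (∑ q, ‖w q‖) ^ m ≤ C ^ m :=
    pow_le_pow_left₀ (Finset.sum_nonneg fun q _ => norm_nonneg _) hC m
  calc ‖dt O ε (fun k r => ∑ q, w q * c q * x q ^ (k : ℕ) * V q r)‖
      ≤ (m.factorial : ℝ) * ‖dt O ε (fun k r => ∑ q, w q * c q * x q ^ (k : ℕ) * V q r)‖ := by
        nlinarith
    _ ≤ (∑ q, ‖w q‖) ^ m * B := h2
    _ ≤ C ^ m * B := mul_le_mul_of_nonneg_right h8 hB0

end Vale.Agent.P030.T.Lad
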