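import Vale.Agent.P030.T.Merge
import Vale.Agent.P030.H792.OdFinal

/-!
# P030, the final theorem from the archimedean estimate alone

Nonvanishing, odd primes (`H792.stOD_A7`, `104393 / 60`) and the prime two (`H914.stTW`,
`13945 / 4 * log 2`) are theorems.
-/

namespace Vale.Agent.P030.T

/-- everything but the archimedean estimate -/
theorem catalan_of_AF {A : ℝ} (hAF : StAF H579.parA 7 A) (hA : (4156368 / 1000 : ℝ) ≤ A) :
    Irrational (∑' j : ℕ, (-1 : ℝ) ^ j / (2 * (j : ℝ) + 1) ^ 2) :=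
  catalan_open hAF H792.stOD_A7 (by linarith)

/-- the same from `StAR` -/
theorem catalan_of_AR {A : ℝ} (hAR : StAR H579.parA 7 A) (hA : (4156368 / 1000 : ℝ) ≤ A) :
    Irrational (∑' j : ℕ, (-1 : ℝ) ^ j / (2 * (j : ℝ) + 1) ^ 2) :=
  catalan_of_AF (af_of_ar hAR) hA

end Vale.Agent.P030.T
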